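import Vale.Agent.P093.N.Co.Tensor

/-!
# P093, part N : comodule calculus (4) : connected bialgebras, injective = cofree
-/

open TensorProduct Coalgebra

set_option linter.unusedSectionVars false

namespace Vale.Agent.P093.N.Co

section Lin

variable {k A M N V : Type*} [Field k] [AddCommGroup A] [Module k A]
  [AddCommGroup M] [Module k M] [AddCommGroup N] [Module k N] [AddCommGroup V] [Module k V]

/-- Contraction with a functional. -/
noncomputable def ctr (M : Type*) [AddCommGroup M] [Module k M] (f : A →ₗ[k] k) :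
    A ⊗[k] M →ₗ[k] M :=
  (TensorProduct.lid k M).toLinearMap ∘ₗ f.rTensor M

@[simp] theorem ctr_tmul (f : A →ₗ[k] k) (a : A) (m : M) : ctr M f (a ⊗ₜ m) = f a • m := by
  simp [ctr]

theorem ctr_lTensor (f : A →ₗ[k] k) (g : M →ₗ[k] N) (x : A ⊗[k] M) :
    ctr N f (g.lTensor A x) = g (ctr M f x) := by
  induction x with
  | zero => simp
  | add x y hx hy => simp only [map_add, hx, hy]
  | tmul a m => simp

/-- Functionals separate elements of a tensor product. -/
theorem eq_zero_of_ctr {x : A ⊗[k] M} (h : ∀ f : A →ₗ[k] k, ctr M f x = 0) : x = 0 := by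
  classical
  let b := Module.Basis.ofVectorSpace k A
  apply (TensorProduct.equivFinsuppOfBasisLeft b (N := M)).injective
  rw [map_zero]
  ext i
  rw [TensorProduct.equivFinsuppOfBasisLeft_apply]
  exact h _

theorem mem_range_of_ctr (F : Submodule k A) {x : A ⊗[k] M}
    (h : ∀ f : A →ₗ[k] k, (∀ a ∈ F, f a = 0) → ctr M f x = 0) :
    x ∈ LinearMap.range (F.subtype.rTensor M) := by
  have h1 : F.mkQ.rTensor M x = 0 := by
    apply eq_zero_of_ctr
    intro g
    have h2 : ∀ y : A ⊗[k] M, ctr M g (F.mkQ.rTensor M y) = ctr M (g ∘ₗ F.mkQ) y := by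
      intro y
      induction y with
      | zero => simp
      | add x y hx hy => simp only [map_add, hx, hy]
      | tmul a m => simp
    rw [h2]
    apply h
    intro a ha
    rw [LinearMap.comp_apply, Submodule.mkQ_apply, (Submodule.Quotient.mk_eq_zero F).mpr ha,
      map_zero]
  have h2 := rTensor_exact M (LinearMap.exact_subtype_mkQ F) (Submodule.mkQ_surjective F)
  exact (h2 x).mp h1

end Lin

section Conn

variable {k A M N V : Type*} [Field k] [CommRing A] [Bialgebra k A]
  [AddCommGroup M] [Module k M] [AddCommGroup N] [Module k N] [AddCommGroup V] [Module k V]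

/-- A connected (exhaustive) filtration of a bialgebra:
`Δ (F (j + 1)) ⊆ F j ⊗ A + A ⊗ 1`. -/
structure IsConn (F : ℕ → Submodule k A) : Prop where
  zero : F 0 = ⊥
  mono : Monotone F
  exh : ∀ a, ∃ j, a ∈ F j
  comul : ∀ j, ∀ a ∈ F (j + 1), ∃ c : A,
    comul (R := k) a - c ⊗ₜ[k] (1 : A) ∈ LinearMap.range ((F j).subtype.rTensor A)

/-- The primitive elements. -/
noncomputable def prim (ρ : M →ₗ[k] A ⊗[k] M) : Submodule k M :=
  LinearMap.eqLocus ρ (TensorProduct.mk k A M 1)

theorem mem_prim {ρ : M →ₗ[k] A ⊗[k] M} {x : M} : x ∈ prim ρ ↔ ρ x = 1 ⊗ₜ x := Iff.rfl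

theorem tmul_one_inj {x : V} (h : (1 : A) ⊗ₜ[k] x = 0) : x = 0 := by
  have := congrArg (ctr V (counit (R := k) (A := A))) h
  simpa using this

theorem ctr_counit {ρ : M →ₗ[k] A ⊗[k] M} (hρ : IsCoact ρ) (x : M) :
    ctr M (counit (R := k) (A := A)) (ρ x) = x := hρ.counital_apply x

theorem exists_fil {F : ℕ → Submodule k A} (hF : IsConn F) (x : A ⊗[k] M) :
    ∃ j, x ∈ LinearMap.range ((F j).subtype.rTensor M) := by
  have hmono : ∀ i j, i ≤ j → LinearMap.range ((F i).subtype.rTensor M) ≤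
      LinearMap.range ((F j).subtype.rTensor M) := by
    rintro i j h _ ⟨y, rfl⟩
    refine ⟨(Submodule.inclusion (hF.mono h)).rTensor M y, ?_⟩
    rw [← LinearMap.comp_apply, ← LinearMap.rTensor_comp]
    rfl
  induction x with
  | zero => exact ⟨0, zero_mem _⟩
  | add x y hx hy =>
    obtain ⟨i, hi⟩ := hx
    obtain ⟨j, hj⟩ := hy
    exact ⟨max i j, add_mem (hmono _ _ (le_max_left _ _) hi) (hmono _ _ (le_max_right _ _) hj)⟩
  | tmul a m =>
    obtain ⟨j, hj⟩ := hF.exh a
    exact ⟨j, (⟨a, hj⟩ : F j) ⊗ₜ m, by simp⟩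

theorem ctr_comul {F : ℕ → Submodule k A} (hF : IsConn F) {j : ℕ} {f : A →ₗ[k] k}
    (hf : ∀ a ∈ F j, f a = 0) {x : A ⊗[k] M}
    (hx : x ∈ LinearMap.range ((F (j + 1)).subtype.rTensor M)) :
    ∃ z : M, ctr (A ⊗[k] M) f (TensorProduct.assoc k A A M ((comul (R := k)).rTensor M x)) =
      1 ⊗ₜ z := by
  obtain ⟨y, rfl⟩ := hx
  induction y with
  | zero => exact ⟨0, by simp⟩
  | add x y hx hy =>
    obtain ⟨z, hz⟩ := hx
    obtain ⟨w, hw⟩ := hy
    refine ⟨z + w, ?_⟩
    simp only [map_add, hz, hw, tmul_add]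
  | tmul a m =>
    obtain ⟨c, hc⟩ := hF.comul j a.1 a.2
    obtain ⟨u, hu⟩ := hc
    refine ⟨f c • m, ?_⟩
    have h1 : comul (R := k) a.1 = c ⊗ₜ[k] (1 : A) + (F j).subtype.rTensor A u := by
      rw [hu]
      abel
    have h2 : ∀ v : F j ⊗[k] A, ctr (A ⊗[k] M) f (TensorProduct.assoc k A A M
        ((F j).subtype.rTensor A v ⊗ₜ m)) = 0 := by
      intro v
      induction v with
      | zero => simp
      | add x y hx hy => simp only [map_add, add_tmul, hx, hy, add_zero]
      | tmul b c => simp [hf b.1 b.2]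
    simp only [LinearMap.rTensor_tmul, Submodule.subtype_apply, h1, add_tmul, map_add, h2,
      add_zero, TensorProduct.assoc_tmul, ctr_tmul]
    rw [TensorProduct.tmul_smul]

theorem ctr_mem {ρ : M →ₗ[k] A ⊗[k] M} {K : Submodule k M} (hK : SubCo ρ K) {x : M}
    (hx : x ∈ K) (f : A →ₗ[k] k) : ctr M f (ρ x) ∈ K := by
  obtain ⟨y, hy⟩ := hK x hx
  rw [← hy, ctr_lTensor]
  exact (ctr K f y).2

/-- A subcomodule without nonzero primitive elements is zero. -/
theorem eq_bot_of_prim {F : ℕ → Submodule k A} (hF : IsConn F) {ρ : M →ₗ[k] A ⊗[k] M}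
    (hρ : IsCoact ρ) {K : Submodule k M} (hK : SubCo ρ K)
    (h0 : ∀ x ∈ K, ρ x = 1 ⊗ₜ x → x = 0) : K = ⊥ := by
  have key : ∀ j, ∀ x ∈ K, ρ x ∈ LinearMap.range ((F j).subtype.rTensor M) → x = 0 := by
    intro j
    induction j with
    | zero =>
      rintro x - ⟨y, hy⟩
      have h1 : (F 0).subtype = 0 := by
        ext a
        have h2 : ∀ b ∈ F 0, b = 0 := fun b hb => by
          rw [hF.zero] at hb
          exact hb
        exact h2 a.1 a.2
      rw [h1, LinearMap.rTensor_zero, LinearMap.zero_apply] at hy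
      have h2 := ctr_counit hρ x
      rw [← hy, map_zero] at h2
      exact h2.symm
    | succ j ih =>
      intro x hx hj
      apply ih x hx
      apply mem_range_of_ctr
      intro f hf
      apply h0 _ (ctr_mem hK hx f)
      obtain ⟨z, hz⟩ := ctr_comul hF hf hj
      rw [hρ.coassoc_apply, ctr_lTensor] at hz
      have h3 := ctr_counit hρ (ctr M f (ρ x))
      rw [hz, ctr_tmul, Bialgebra.counit_one, one_smul] at h3
      rw [hz, h3]
  rw [eq_bot_iff]
  intro x hx
  obtain ⟨j, hj⟩ := exists_fil hF (ρ x)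
  exact key j x hx hj

/-- Over a connected bialgebra an injective comodule is cofree. -/
theorem Inj.bijective {F : ℕ → Submodule k A} (hF : IsConn F) {ρ : M →ₗ[k] A ⊗[k] M}
    (hρ : IsCoact ρ) (h : Inj ρ) {π : M →ₗ[k] V}
    (hπ : Function.Bijective (π ∘ₗ (prim ρ).subtype)) :
    Function.Bijective (π.lTensor A ∘ₗ ρ) := by
  have hΨ := hρ.colin_map π
  have hinj : Function.Injective (π.lTensor A ∘ₗ ρ) := by
    rw [← LinearMap.ker_eq_bot]
    refine eq_bot_of_prim hF hρ (subCo_ker hΨ) fun x hx hx' => ?_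
    have h1 : (1 : A) ⊗ₜ[k] π x = 0 := by
      have := LinearMap.mem_ker.mp hx
      rwa [LinearMap.comp_apply, hx', LinearMap.lTensor_tmul] at this
    have h2 := tmul_one_inj h1
    have h3 := hπ.1 (a₁ := (⟨x, hx'⟩ : prim ρ)) (a₂ := 0) (by simpa using h2)
    exact congrArg Subtype.val h3
  refine ⟨hinj, ?_⟩
  obtain ⟨l, hl⟩ := exists_retr hinj
  obtain ⟨R, hR, hR'⟩ := h.split isCoact_cof hΨ hl
  have hRi : Function.Injective R := by
    rw [← LinearMap.ker_eq_bot]
    refine eq_bot_of_prim hF isCoact_cof (subCo_ker hR) fun x hx hx' => ?_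
    have h1 : ∀ y : A ⊗[k] V, (ctr V (counit (R := k) (A := A))).lTensor A (cof k A V y) = y := by
      intro y
      induction y with
      | zero => simp
      | add x y hx hy => simp only [map_add, hx, hy]
      | tmul a v =>
        have h2 := LinearMap.congr_fun (Coalgebra.lTensor_counit_comp_comul (R := k) (A := A)) a
        have h3 : ∀ z : A ⊗[k] A, (ctr V (counit (R := k) (A := A))).lTensor A
            (TensorProduct.assoc k A A V (z ⊗ₜ v)) =
            (TensorProduct.rid k A ((counit (R := k)).lTensor A z)) ⊗ₜ v := by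
          intro z
          induction z with
          | zero => simp
          | add x y hx hy => simp only [add_tmul, map_add, hx, hy]
          | tmul b c => simp [TensorProduct.smul_tmul]
        have h4 : cof k A V (a ⊗ₜ v) = TensorProduct.assoc k A A V
          ((comul (R := k) a) ⊗ₜ v) := by simp [cof]
        rw [h4, h3]
        simp only [LinearMap.comp_apply] at h2
        rw [h2]
        simp
    have h2 : x = 1 ⊗ₜ (ctr V (counit (R := k) (A := A)) x) := by
      conv_lhs => rw [← h1 x, hx']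
      simp
    obtain ⟨p, hp⟩ := hπ.2 (ctr V (counit (R := k) (A := A)) x)
    have h5 : (π.lTensor A ∘ₗ ρ) p.1 = x := by
      have h6 : ρ p.1 = 1 ⊗ₜ p.1 := p.2
      rw [LinearMap.comp_apply, h6, LinearMap.lTensor_tmul, h2]
      congr 1
    have h6 := LinearMap.congr_fun hR' p.1
    rw [LinearMap.comp_apply, h5, LinearMap.mem_ker.mp hx, LinearMap.id_apply] at h6
    rw [← h5, ← h6, map_zero]
  intro y
  refine ⟨R y, hRi ?_⟩
  exact LinearMap.congr_fun hR' (R y)

/-- Cofree comodules are injective. -/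
theorem inj_of_bijective {ρ : M →ₗ[k] A ⊗[k] M}
    (hρ : IsCoact ρ) {π : M →ₗ[k] V} (h : Function.Bijective (π.lTensor A ∘ₗ ρ)) : Inj ρ :=
  inj_cof.of_bij (hρ.colin_map π) h

end Conn

end Vale.Agent.P093.N.Co
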