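import Mathlib

/-!
# P093, part N : comodule calculus (1)

A coaction of a coalgebra `A` on a `k`-module `M` is a linear map `ρ : M → A ⊗ M` with
`IsCoact ρ`. A comodule is *injective* (`Inj ρ`) if `ρ` has a colinear retraction.
-/

open TensorProduct Coalgebra

set_option linter.unusedSectionVars false

namespace Vale.Agent.P093.N.Co

universe u v w

section Coalg

variable {k A M N Q V W : Type*} [CommSemiring k] [AddCommMonoid A] [Module k A]
  [Coalgebra k A] [AddCommMonoid M] [Module k M] [AddCommMonoid N] [Module k N]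
  [AddCommMonoid Q] [Module k Q] [AddCommMonoid V] [Module k V] [AddCommMonoid W] [Module k W]

/-- `ρ` is a left coaction of the coalgebra `A` on `M`. -/
structure IsCoact (ρ : M →ₗ[k] A ⊗[k] M) : Prop where
  coassoc : (TensorProduct.assoc k A A M).toLinearMap ∘ₗ (comul (R := k)).rTensor M ∘ₗ ρ =
    ρ.lTensor A ∘ₗ ρ
  counital : (TensorProduct.lid k M).toLinearMap ∘ₗ (counit (R := k)).rTensor M ∘ₗ ρ =
    LinearMap.id

/-- `f` is a map of comodules. -/
def Colin (ρ : M →ₗ[k] A ⊗[k] M) (σ : N →ₗ[k] A ⊗[k] N) (f : M →ₗ[k] N) : Prop :=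
  σ ∘ₗ f = f.lTensor A ∘ₗ ρ

/-- The cofree comodule on `V`. -/
noncomputable def cof (k A V : Type*) [CommSemiring k] [AddCommMonoid A] [Module k A]
    [Coalgebra k A] [AddCommMonoid V] [Module k V] : A ⊗[k] V →ₗ[k] A ⊗[k] (A ⊗[k] V) :=
  (TensorProduct.assoc k A A V).toLinearMap ∘ₗ (comul (R := k)).rTensor V

/-- An injective comodule: the coaction has a colinear retraction. -/
def Inj (ρ : M →ₗ[k] A ⊗[k] M) : Prop :=
  ∃ r : A ⊗[k] M →ₗ[k] M, Colin (cof k A M) ρ r ∧ r ∘ₗ ρ = LinearMap.id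

theorem IsCoact.coassoc_apply {ρ : M →ₗ[k] A ⊗[k] M} (h : IsCoact ρ) (m : M) :
    TensorProduct.assoc k A A M ((comul (R := k)).rTensor M (ρ m)) = ρ.lTensor A (ρ m) :=
  LinearMap.congr_fun h.coassoc m

theorem IsCoact.counital_apply {ρ : M →ₗ[k] A ⊗[k] M} (h : IsCoact ρ) (m : M) :
    TensorProduct.lid k M ((counit (R := k)).rTensor M (ρ m)) = m :=
  LinearMap.congr_fun h.counital m

theorem Colin.apply {ρ : M →ₗ[k] A ⊗[k] M} {σ : N →ₗ[k] A ⊗[k] N} {f : M →ₗ[k] N}
    (h : Colin ρ σ f) (m : M) : σ (f m) = f.lTensor A (ρ m) := LinearMap.congr_fun h m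

theorem Colin.comp {ρ : M →ₗ[k] A ⊗[k] M} {σ : N →ₗ[k] A ⊗[k] N} {τ : Q →ₗ[k] A ⊗[k] Q}
    {f : M →ₗ[k] N} {g : N →ₗ[k] Q} (hg : Colin σ τ g) (hf : Colin ρ σ f) :
    Colin ρ τ (g ∘ₗ f) := by
  unfold Colin at *
  rw [← LinearMap.comp_assoc, hg, LinearMap.comp_assoc, hf, LinearMap.lTensor_comp,
    LinearMap.comp_assoc]

theorem Colin.id (ρ : M →ₗ[k] A ⊗[k] M) : Colin ρ ρ LinearMap.id := by
  unfold Colin
  rw [LinearMap.lTensor_id, LinearMap.comp_id, LinearMap.id_comp]

theorem Colin.zero (ρ : M →ₗ[k] A ⊗[k] M) (σ : N →ₗ[k] A ⊗[k] N) : Colin ρ σ 0 := by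
  unfold Colin
  rw [LinearMap.lTensor_zero, LinearMap.comp_zero, LinearMap.zero_comp]

theorem Colin.add {ρ : M →ₗ[k] A ⊗[k] M} {σ : N →ₗ[k] A ⊗[k] N} {f g : M →ₗ[k] N}
    (hf : Colin ρ σ f) (hg : Colin ρ σ g) : Colin ρ σ (f + g) := by
  unfold Colin at *
  rw [LinearMap.lTensor_add, LinearMap.add_comp, LinearMap.comp_add, hf, hg]

theorem Colin.smul {ρ : M →ₗ[k] A ⊗[k] M} {σ : N →ₗ[k] A ⊗[k] N} {f : M →ₗ[k] N} (c : k)
    (hf : Colin ρ σ f) : Colin ρ σ (c • f) := by
  unfold Colin at *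
  rw [LinearMap.lTensor_smul, LinearMap.smul_comp, LinearMap.comp_smul, hf]

/-- The cofree comodule is a comodule. -/
theorem isCoact_cof : IsCoact (cof k A V) where
  coassoc := by
    have h := Coalgebra.coassoc (R := k) (A := A)
    ext a v
    have h1 := LinearMap.congr_fun h a
    have key : ∀ x : A ⊗[k] A,
        (TensorProduct.assoc k A A (A ⊗[k] V)) ((comul (R := k)).rTensor (A ⊗[k] V)
          (TensorProduct.assoc k A A V (x ⊗ₜ v))) =
        (TensorProduct.assoc k A A V).toLinearMap.lTensor A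
          (TensorProduct.assoc k A (A ⊗[k] A) V
            (TensorProduct.assoc k A A A ((comul (R := k)).rTensor A x) ⊗ₜ v)) := by
      intro x
      induction x with
      | zero => simp
      | add x y hx hy => rw [add_tmul, map_add, map_add, map_add, hx, hy, map_add, map_add,
          add_tmul, map_add, map_add]
      | tmul b c =>
        simp only [TensorProduct.assoc_tmul, LinearMap.rTensor_tmul]
        generalize (comul (R := k)) b = y
        induction y with
        | zero => simp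
        | add x y hx hy => rw [add_tmul, map_add, hx, hy, add_tmul, map_add, add_tmul, map_add,
            map_add]
        | tmul d e => simp
    have key2 : ∀ x : A ⊗[k] A,
        (cof k A V).lTensor A (TensorProduct.assoc k A A V (x ⊗ₜ v)) =
        (TensorProduct.assoc k A A V).toLinearMap.lTensor A
          (TensorProduct.assoc k A (A ⊗[k] A) V
            (((comul (R := k)).lTensor A x) ⊗ₜ v)) := by
      intro x
      induction x with
      | zero => simp
      | add x y hx hy => rw [add_tmul, map_add, map_add, hx, hy, map_add,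
          add_tmul, map_add, map_add]
      | tmul b c => simp [cof]
    simp only [LinearMap.coe_comp, Function.comp_apply, LinearEquiv.coe_coe,
      TensorProduct.AlgebraTensorModule.curry_apply, TensorProduct.curry_apply,
      LinearMap.coe_restrictScalars] at h1 ⊢
    simp only [cof, LinearMap.coe_comp, Function.comp_apply, LinearEquiv.coe_coe,
      LinearMap.rTensor_tmul] at key2 ⊢
    rw [key, h1, ← key2]
  counital := by
    ext a v
    have h1 := LinearMap.congr_fun (Coalgebra.rTensor_counit_comp_comul (R := k) (A := A)) a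
    have key : ∀ x : A ⊗[k] A,
        TensorProduct.lid k (A ⊗[k] V) ((counit (R := k)).rTensor (A ⊗[k] V)
          (TensorProduct.assoc k A A V (x ⊗ₜ v))) =
        (TensorProduct.lid k A ((counit (R := k)).rTensor A x)) ⊗ₜ v := by
      intro x
      induction x with
      | zero => simp
      | add x y hx hy => rw [add_tmul, map_add, map_add, map_add, hx, hy, map_add, map_add,
          add_tmul]
      | tmul b c => simp [TensorProduct.smul_tmul']
    simp only [cof, LinearMap.coe_comp, Function.comp_apply, LinearEquiv.coe_coe,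
      TensorProduct.AlgebraTensorModule.curry_apply, TensorProduct.curry_apply,
      LinearMap.coe_restrictScalars, LinearMap.rTensor_tmul, key, LinearMap.id_coe, id_eq]
    simp only [LinearMap.coe_comp, Function.comp_apply] at h1
    rw [h1]
    simp

/-- Linear maps into `V` give colinear maps into the cofree comodule on `V`. -/
theorem colin_cof_map (f : V →ₗ[k] W) : Colin (cof k A V) (cof k A W) (f.lTensor A) := by
  unfold Colin
  ext a v
  simp only [cof, TensorProduct.AlgebraTensorModule.curry_apply, TensorProduct.curry_apply,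
    LinearMap.coe_restrictScalars, LinearMap.coe_comp, Function.comp_apply,
    LinearEquiv.coe_coe, LinearMap.rTensor_tmul, LinearMap.lTensor_tmul]
  generalize (comul (R := k)) a = x
  induction x with
  | zero => simp
  | add x y hx hy => rw [add_tmul, map_add, hx, hy, add_tmul, map_add, map_add]
  | tmul b c => simp

/-- A coaction is a map to a cofree comodule. -/
theorem IsCoact.colin {ρ : M →ₗ[k] A ⊗[k] M} (h : IsCoact ρ) : Colin ρ (cof k A M) ρ := by
  have := h.coassoc
  unfold Colin cof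
  rw [LinearMap.comp_assoc]
  exact this

/-- The colinear map into a cofree comodule attached to a linear map. -/
theorem IsCoact.colin_map {ρ : M →ₗ[k] A ⊗[k] M} (h : IsCoact ρ) (f : M →ₗ[k] V) :
    Colin ρ (cof k A V) (f.lTensor A ∘ₗ ρ) :=
  (colin_cof_map f).comp h.colin

/-- The colinear retraction of a cofree comodule. -/
theorem inj_cof : Inj (cof k A V) := by
  refine ⟨(((TensorProduct.lid k V).toLinearMap ∘ₗ (counit (R := k)).rTensor V)).lTensor A,
    colin_cof_map _, ?_⟩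
  ext a v
  have h1 := LinearMap.congr_fun (Coalgebra.lTensor_counit_comp_comul (R := k) (A := A)) a
  have key : ∀ x : A ⊗[k] A,
      ((TensorProduct.lid k V).toLinearMap ∘ₗ (counit (R := k)).rTensor V).lTensor A
        (TensorProduct.assoc k A A V (x ⊗ₜ v)) =
      (TensorProduct.rid k A ((counit (R := k)).lTensor A x)) ⊗ₜ v := by
    intro x
    induction x with
    | zero => simp
    | add x y hx hy => rw [add_tmul, map_add, map_add, hx, hy, map_add, map_add, add_tmul]
    | tmul b c => simp [TensorProduct.smul_tmul]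
  simp only [cof, LinearMap.coe_comp, Function.comp_apply, LinearEquiv.coe_coe,
    TensorProduct.AlgebraTensorModule.curry_apply, TensorProduct.curry_apply,
    LinearMap.coe_restrictScalars, LinearMap.rTensor_tmul, LinearMap.id_coe, id_eq]
  have := key ((comul (R := k)) a)
  simp only [LinearMap.coe_comp, Function.comp_apply] at h1
  rw [h1] at this
  simpa using this

/-- Retracts of injective comodules are injective. -/
theorem Inj.retract {ρ : M →ₗ[k] A ⊗[k] M} {σ : N →ₗ[k] A ⊗[k] N} (h : Inj σ)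
    {i : M →ₗ[k] N} {s : N →ₗ[k] M} (hi : Colin ρ σ i) (hs : Colin σ ρ s)
    (his : s ∘ₗ i = LinearMap.id) : Inj ρ := by
  obtain ⟨r, hr, hr'⟩ := h
  refine ⟨s ∘ₗ r ∘ₗ i.lTensor A, (hs.comp (hr.comp (colin_cof_map i))), ?_⟩
  have : i.lTensor A ∘ₗ ρ = σ ∘ₗ i := hi.symm
  rw [LinearMap.comp_assoc, LinearMap.comp_assoc, this, ← LinearMap.comp_assoc i, hr',
    LinearMap.id_comp, his]

/-- Colinear maps into an injective comodule extend along (linearly split) colinear injections. -/
theorem Inj.extend {ρ : M →ₗ[k] A ⊗[k] M} {σ : N →ₗ[k] A ⊗[k] N} {τ : Q →ₗ[k] A ⊗[k] Q}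
    (h : Inj τ) (hσ : IsCoact σ) {i : M →ₗ[k] N} (hi : Colin ρ σ i) {l : N →ₗ[k] M}
    (hl : l ∘ₗ i = LinearMap.id) {f : M →ₗ[k] Q} (hf : Colin ρ τ f) :
    ∃ g : N →ₗ[k] Q, Colin σ τ g ∧ g ∘ₗ i = f := by
  obtain ⟨r, hr, hr'⟩ := h
  refine ⟨r ∘ₗ ((f ∘ₗ l).lTensor A ∘ₗ σ), hr.comp (hσ.colin_map _), ?_⟩
  have h1 : σ ∘ₗ i = i.lTensor A ∘ₗ ρ := hi
  have h2 : f.lTensor A ∘ₗ ρ = τ ∘ₗ f := hf.symm
  have h3 : (f ∘ₗ l).lTensor A ∘ₗ i.lTensor A = f.lTensor A := by
    rw [← LinearMap.lTensor_comp, LinearMap.comp_assoc, hl, LinearMap.comp_id]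
  calc (r ∘ₗ ((f ∘ₗ l).lTensor A ∘ₗ σ)) ∘ₗ i = r ∘ₗ (f ∘ₗ l).lTensor A ∘ₗ (σ ∘ₗ i) := rfl
    _ = r ∘ₗ ((f ∘ₗ l).lTensor A ∘ₗ i.lTensor A) ∘ₗ ρ := by rw [h1]; rfl
    _ = (r ∘ₗ τ) ∘ₗ f := by rw [h3, h2]; rfl
    _ = f := by rw [hr', LinearMap.id_comp]

/-- Injective comodules split off. -/
theorem Inj.split {ρ : M →ₗ[k] A ⊗[k] M} {σ : N →ₗ[k] A ⊗[k] N} (h : Inj ρ) (hσ : IsCoact σ)
    {i : M →ₗ[k] N} (hi : Colin ρ σ i) {l : N →ₗ[k] M} (hl : l ∘ₗ i = LinearMap.id) :
    ∃ g : N →ₗ[k] M, Colin σ ρ g ∧ g ∘ₗ i = LinearMap.id :=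
  h.extend hσ hi hl (Colin.id ρ)

/-- Injectivity transfers along colinear bijections. -/
theorem Inj.of_bij {ρ : M →ₗ[k] A ⊗[k] M} {σ : N →ₗ[k] A ⊗[k] N} (h : Inj σ)
    {f : M →ₗ[k] N} (hf : Colin ρ σ f) (hb : Function.Bijective f) : Inj ρ := by
  let e := LinearEquiv.ofBijective f hb
  have h1 : e.symm.toLinearMap ∘ₗ f = LinearMap.id := by
    ext x
    exact e.symm_apply_apply x
  have h2 : f ∘ₗ e.symm.toLinearMap = LinearMap.id := by
    ext x
    exact e.apply_symm_apply x
  refine h.retract hf (s := e.symm.toLinearMap) ?_ h1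
  unfold Colin at *
  refine (LinearMap.cancel_right hb.2).mp ?_
  rw [LinearMap.comp_assoc, h1, LinearMap.comp_id, LinearMap.comp_assoc, hf,
    ← LinearMap.comp_assoc, ← LinearMap.lTensor_comp, h1, LinearMap.lTensor_id,
    LinearMap.id_comp]

theorem Inj.of_bij' {ρ : M →ₗ[k] A ⊗[k] M} {σ : N →ₗ[k] A ⊗[k] N} (h : Inj ρ)
    {f : M →ₗ[k] N} (hf : Colin ρ σ f) (hb : Function.Bijective f) : Inj σ := by
  let e := LinearEquiv.ofBijective f hb
  have h1 : e.symm.toLinearMap ∘ₗ f = LinearMap.id := by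
    ext x
    exact e.symm_apply_apply x
  have h2 : f ∘ₗ e.symm.toLinearMap = LinearMap.id := by
    ext x
    exact e.apply_symm_apply x
  refine h.retract (i := e.symm.toLinearMap) ?_ hf h2
  unfold Colin at *
  refine (LinearMap.cancel_right hb.2).mp ?_
  rw [LinearMap.comp_assoc, h1, LinearMap.comp_id, LinearMap.comp_assoc, hf,
    ← LinearMap.comp_assoc, ← LinearMap.lTensor_comp, h1, LinearMap.lTensor_id,
    LinearMap.id_comp]

end Coalg

section Grp

variable {k A M N : Type*} [CommRing k] [AddCommGroup A] [Module k A]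
  [Coalgebra k A] [AddCommGroup M] [Module k M] [AddCommGroup N] [Module k N]

theorem Colin.neg {ρ : M →ₗ[k] A ⊗[k] M} {σ : N →ₗ[k] A ⊗[k] N} {f : M →ₗ[k] N}
    (hf : Colin ρ σ f) : Colin ρ σ (-f) := by
  unfold Colin at *
  rw [LinearMap.lTensor_neg, LinearMap.neg_comp, LinearMap.comp_neg, hf]

theorem Colin.sub {ρ : M →ₗ[k] A ⊗[k] M} {σ : N →ₗ[k] A ⊗[k] N} {f g : M →ₗ[k] N}
    (hf : Colin ρ σ f) (hg : Colin ρ σ g) : Colin ρ σ (f - g) := by
  rw [sub_eq_add_neg]
  exact hf.add hg.neg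

end Grp

end Vale.Agent.P093.N.Co
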