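import Vale.Agent.P093.N.Co.Conil
import Vale.Agent.P093.N.HopfQuot

/-!
# P093, part N : `P_*` and its quotients `Pn p m` are connected bialgebras
-/

open TensorProduct Coalgebra Finset

set_option linter.unusedSectionVars false

namespace Vale.Agent.P093.N.Co

/-- Connectedness passes to quotient bialgebras. -/
theorem IsConn.map {k P A : Type*} [Field k] [CommRing P] [Bialgebra k P] [CommRing A]
    [Bialgebra k A] {F : ℕ → Submodule k P} (h : IsConn F) (π : P →ₐc[k] A)
    (hπ : Function.Surjective π) : IsConn fun j => (F j).map (π : P →ₗ[k] A) where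
  zero := by rw [h.zero, Submodule.map_bot]
  mono i j hij := Submodule.map_mono (h.mono hij)
  exh a := by
    obtain ⟨b, rfl⟩ := hπ a
    obtain ⟨j, hj⟩ := h.exh b
    exact ⟨j, b, hj, rfl⟩
  comul j a ha := by
    obtain ⟨b, hb, rfl⟩ := ha
    obtain ⟨c, y, hy⟩ := h.comul j b hb
    refine ⟨π c, ?_⟩
    have h1 : Coalgebra.comul (R := k) (π b) =
        TensorProduct.map (π : P →ₗ[k] A) (π : P →ₗ[k] A) (Coalgebra.comul (R := k) b) :=
      (CoalgHomClass.map_comp_comul_apply π b).symm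
    have h2 : Coalgebra.comul (R := k) b = (F j).subtype.rTensor P y + c ⊗ₜ 1 := by
      rw [hy]
      abel
    let g : F j →ₗ[k] (F j).map (π : P →ₗ[k] A) :=
      ((π : P →ₗ[k] A) ∘ₗ (F j).subtype).codRestrict _ fun x => ⟨x.1, x.2, rfl⟩
    refine ⟨TensorProduct.map g (π : P →ₗ[k] A) y, ?_⟩
    have h3 : Coalgebra.comul (R := k) ((π : P →ₗ[k] A) b) - π c ⊗ₜ[k] (1 : A) =
        TensorProduct.map (π : P →ₗ[k] A) (π : P →ₗ[k] A) ((F j).subtype.rTensor P y) := by
      have h4 : ((π : P →ₗ[k] A) b) = π b := rfl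
      have h5 : ((π : P →ₗ[k] A) c) = π c := rfl
      have h6 : ((π : P →ₗ[k] A) 1) = 1 := map_one π
      rw [h4, h1, h2, map_add, TensorProduct.map_tmul, h5, h6, add_sub_cancel_right]
    rw [h3]
    generalize y = z
    induction z with
    | zero => simp
    | add x y hx hy => simp only [map_add, hx, hy]
    | tmul u v =>
      simp only [LinearMap.rTensor_tmul, TensorProduct.map_tmul]
      rfl

section PS

variable (p : ℕ) [hp : Fact p.Prime]

/-- The weight of a monomial: `|t_i| = p ^ i - 1`. -/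
noncomputable def wtP : (ℕ →₀ ℕ) →+ ℕ := Finsupp.weight fun k : ℕ => p ^ (k + 1) - 1

theorem wtP_single (k n : ℕ) : wtP p (Finsupp.single k n) = n * (p ^ (k + 1) - 1) := by
  simp [wtP, Finsupp.weight_single]

/-- Elements of weight at most `d`. -/
noncomputable def wle (d : ℕ) : Submodule (ZMod p) (PS p) :=
  Submodule.span (ZMod p) (PS.mon p '' {e | wtP p e ≤ d})

/-- Elements of weight less than `d`. -/
noncomputable def wlt : ℕ → Submodule (ZMod p) (PS p)
  | 0 => ⊥
  | d + 1 => wle p d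

variable {p}

theorem wle_mono {d e : ℕ} (h : d ≤ e) : wle p d ≤ wle p e :=
  Submodule.span_mono (Set.image_mono fun _ hx => le_trans hx h)

theorem wlt_mono : Monotone (wlt p) := by
  intro d e h
  cases d with
  | zero => exact bot_le
  | succ d =>
    cases e with
    | zero => omega
    | succ e => exact wle_mono (by omega)

theorem wlt_le (d : ℕ) : wlt p d ≤ wle p d := by
  cases d with
  | zero => exact bot_le
  | succ d => exact wle_mono (by omega)

theorem mon_mem_wle {e : ℕ →₀ ℕ} {d : ℕ} (h : wtP p e ≤ d) : PS.mon p e ∈ wle p d :=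
  Submodule.subset_span ⟨e, h, rfl⟩

theorem mon_mem_wlt {e : ℕ →₀ ℕ} {d : ℕ} (h : wtP p e < d) : PS.mon p e ∈ wlt p d := by
  cases d with
  | zero => omega
  | succ d => exact mon_mem_wle (by omega)

theorem mul_mem_wle {x y : PS p} {d e : ℕ} (hx : x ∈ wle p d) (hy : y ∈ wle p e) :
    x * y ∈ wle p (d + e) := by
  have h : wle p d * wle p e ≤ wle p (d + e) := by
    unfold wle
    rw [Submodule.span_mul_span, Submodule.span_le]
    rintro _ ⟨_, ⟨a, ha, rfl⟩, _, ⟨b, hb, rfl⟩, rfl⟩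
    refine Submodule.subset_span ⟨a + b, ?_, (PS.mon_mul_mon a b).symm⟩
    simp only [Set.mem_ofPred_eq, map_add] at ha hb ⊢
    omega
  exact h (Submodule.mul_mem_mul hx hy)

theorem mul_mem_wlt {x y : PS p} {d e : ℕ} (hx : x ∈ wle p d) (hy : y ∈ wlt p e) :
    x * y ∈ wlt p (d + e) := by
  cases e with
  | zero =>
    have : y = 0 := hy
    rw [this, mul_zero]
    exact zero_mem _
  | succ e => exact mul_mem_wle hx hy

/-- `W_d ⊗ 1 + F_d ⊗ P`. -/
noncomputable def tfil (p : ℕ) [Fact p.Prime] (d : ℕ) :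
    Submodule (ZMod p) (PS p ⊗[ZMod p] PS p) :=
  Submodule.span (ZMod p) ({x | ∃ c ∈ wle p d, x = c ⊗ₜ 1} ∪
    {x | ∃ u ∈ wlt p d, ∃ v, x = u ⊗ₜ v})

theorem tfil_left {c : PS p} {d : ℕ} (h : c ∈ wle p d) : c ⊗ₜ 1 ∈ tfil p d :=
  Submodule.subset_span (Or.inl ⟨c, h, rfl⟩)

theorem tfil_right {u : PS p} (v : PS p) {d : ℕ} (h : u ∈ wlt p d) : u ⊗ₜ v ∈ tfil p d :=
  Submodule.subset_span (Or.inr ⟨u, h, v, rfl⟩)

theorem tfil_mono {d e : ℕ} (h : d ≤ e) : tfil p d ≤ tfil p e := by
  refine Submodule.span_mono ?_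
  rintro x (⟨c, hc, rfl⟩ | ⟨u, hu, v, rfl⟩)
  · exact Or.inl ⟨c, wle_mono h hc, rfl⟩
  · exact Or.inr ⟨u, wlt_mono h hu, v, rfl⟩

theorem tfil_mul {x y : PS p ⊗[ZMod p] PS p} {d e : ℕ} (hx : x ∈ tfil p d) (hy : y ∈ tfil p e) :
    x * y ∈ tfil p (d + e) := by
  have h : tfil p d * tfil p e ≤ tfil p (d + e) := by
    unfold tfil
    rw [Submodule.span_mul_span, Submodule.span_le]
    rintro _ ⟨_, (⟨c, hc, rfl⟩ | ⟨u, hu, v, rfl⟩), _, (⟨c', hc', rfl⟩ | ⟨u', hu', v', rfl⟩), rfl⟩
    · simp only [Algebra.TensorProduct.tmul_mul_tmul, mul_one]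
      exact tfil_left (mul_mem_wle hc hc')
    · simp only [Algebra.TensorProduct.tmul_mul_tmul, one_mul]
      exact tfil_right _ (mul_mem_wlt hc hu')
    · simp only [Algebra.TensorProduct.tmul_mul_tmul, mul_one]
      refine tfil_right _ ?_
      rw [mul_comm, add_comm]
      exact mul_mem_wlt hc' hu
    · simp only [Algebra.TensorProduct.tmul_mul_tmul]
      exact tfil_right _ (mul_mem_wlt (wlt_le d hu) hu')
  exact h (Submodule.mul_mem_mul hx hy)

theorem one_mem_tfil (d : ℕ) : (1 : PS p ⊗[ZMod p] PS p) ∈ tfil p d := by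
  rw [Algebra.TensorProduct.one_def]
  refine tfil_left ?_
  rw [← PS.mon_zero]
  exact mon_mem_wle (by simp)

theorem comul_t_mem (k : ℕ) :
    Coalgebra.comul (R := ZMod p) (PS.t p (k + 1)) ∈ tfil p (p ^ (k + 1) - 1) := by
  have h0 : Coalgebra.comul (R := ZMod p) (PS.t p (k + 1)) = PS.cm p (k + 1) :=
    PS.comulHom_t p (k + 1)
  have hp1 : 1 < p := hp.out.one_lt
  rw [h0, PS.cm]
  refine Submodule.sum_mem _ fun ij hij => ?_
  obtain ⟨i, j⟩ := ij
  rw [HasAntidiagonal.mem_antidiagonal] at hij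
  simp only at hij ⊢
  rcases Nat.eq_zero_or_pos j with rfl | hj
  · rw [PS.t_zero, pow_zero, pow_one]
    refine tfil_left ?_
    have hi : i = k + 1 := by omega
    rw [hi]
    have h1 : PS.t p (k + 1) = PS.mon p (Finsupp.single k 1) := by
      have := t_pow_eq_monomial p k 1
      rw [pow_one] at this
      exact this
    rw [h1]
    exact mon_mem_wle (by rw [wtP_single, one_mul])
  · refine tfil_right _ ?_
    have hpj : 1 < p ^ j := Nat.one_lt_pow hj.ne' hp1
    have hk1 : p ^ j ≤ p ^ (k + 1) := Nat.pow_le_pow_right hp1.le (by omega)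
    cases i with
    | zero =>
      rw [PS.t_zero, one_pow, ← PS.mon_zero]
      exact mon_mem_wlt (by rw [map_zero]; omega)
    | succ i =>
      rw [t_pow_eq_monomial]
      refine mon_mem_wlt ?_
      rw [wtP_single, Nat.mul_sub, mul_one, ← pow_add]
      have : j + (i + 1) = k + 1 := by omega
      rw [this]
      omega

theorem comul_mon_mem (e : ℕ →₀ ℕ) :
    Coalgebra.comul (R := ZMod p) (PS.mon p e) ∈ tfil p (wtP p e) := by
  induction e using Finsupp.induction_linear with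
  | zero =>
    rw [PS.mon_zero, Bialgebra.comul_one]
    exact one_mem_tfil _
  | add e f he hf =>
    rw [← PS.mon_mul_mon, Bialgebra.comul_mul, map_add]
    exact tfil_mul he hf
  | single k n =>
    have h1 : PS.mon p (Finsupp.single k n) = PS.t p (k + 1) ^ n := (t_pow_eq_monomial p k n).symm
    rw [h1, wtP_single]
    clear h1
    induction n with
    | zero =>
      rw [pow_zero, Bialgebra.comul_one]
      exact one_mem_tfil _
    | succ n ih =>
      have h2 : PS.t p (k + 1) ^ (n + 1) = PS.t p (k + 1) ^ n * PS.t p (k + 1) := pow_succ _ _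
      rw [h2, Bialgebra.comul_mul, Nat.succ_mul]
      exact tfil_mul ih (comul_t_mem k)

theorem comul_mem_tfil {x : PS p} {d : ℕ} (hx : x ∈ wle p d) :
    Coalgebra.comul (R := ZMod p) x ∈ tfil p d := by
  have h : wle p d ≤ (tfil p d).comap (Coalgebra.comul (R := ZMod p)) := by
    unfold wle
    rw [Submodule.span_le]
    rintro _ ⟨e, he, rfl⟩
    exact tfil_mono he (comul_mon_mem e)
  exact h hx

theorem of_mem_tfil {x : PS p ⊗[ZMod p] PS p} {d : ℕ} (hx : x ∈ tfil p d) :
    ∃ c : PS p, x - c ⊗ₜ 1 ∈ LinearMap.range ((wlt p d).subtype.rTensor (PS p)) := by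
  induction hx using Submodule.span_induction with
  | mem x h =>
    rcases h with ⟨c, _, rfl⟩ | ⟨u, hu, v, rfl⟩
    · exact ⟨c, by rw [sub_self]; exact zero_mem _⟩
    · exact ⟨0, (⟨u, hu⟩ : wlt p d) ⊗ₜ v, by simp⟩
  | zero => exact ⟨0, by simp⟩
  | add x y _ _ hx hy =>
    obtain ⟨c, hc⟩ := hx
    obtain ⟨c', hc'⟩ := hy
    refine ⟨c + c', ?_⟩
    rw [add_tmul, add_sub_add_comm]
    exact add_mem hc hc'
  | smul a x _ hx =>
    obtain ⟨c, hc⟩ := hx
    refine ⟨a • c, ?_⟩
    rw [← TensorProduct.smul_tmul', ← smul_sub]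
    exact Submodule.smul_mem _ a hc

theorem exists_wle (x : PS p) : ∃ d, x ∈ wle p d := by
  induction x using PS.induction_on with
  | C a =>
    refine ⟨0, ?_⟩
    rw [Algebra.algebraMap_eq_smul_one, ← PS.mon_zero]
    exact Submodule.smul_mem _ a (mon_mem_wle (by simp))
  | add x y hx hy =>
    obtain ⟨d, hd⟩ := hx
    obtain ⟨e, he⟩ := hy
    exact ⟨max d e, add_mem (wle_mono (le_max_left _ _) hd) (wle_mono (le_max_right _ _) he)⟩
  | mul_t x k hx =>
    obtain ⟨d, hd⟩ := hx
    refine ⟨d + (p ^ (k + 1) - 1), mul_mem_wle hd ?_⟩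
    have h1 : PS.t p (k + 1) = PS.mon p (Finsupp.single k 1) := by
      have := t_pow_eq_monomial p k 1
      rw [pow_one] at this
      exact this
    rw [h1]
    exact mon_mem_wle (by rw [wtP_single, one_mul])

/-- `P_*` is connected. -/
theorem isConn_PS : IsConn (wlt p) where
  zero := rfl
  mono := wlt_mono
  exh a := by
    obtain ⟨d, hd⟩ := exists_wle a
    exact ⟨d + 1, hd⟩
  comul _ _ ha := of_mem_tfil (comul_mem_tfil ha)

/-- The finite quotients `Pn p m` are connected. -/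
theorem isConn_Pn (m : ℕ) :
    IsConn fun j => (wlt p j).map (Pn.mk p m : PS p →ₗ[ZMod p] Pn p m) :=
  isConn_PS.map (Pn.mk p m) (Pn.mk_surjective p m)

end PS

end Vale.Agent.P093.N.Co
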