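import Vale.Agent.P093.N.Co.Basic

/-!
# P093, part N : comodule calculus (2) : exact sequences of comodules over a field
-/

open TensorProduct Coalgebra

set_option linter.unusedSectionVars false

namespace Vale.Agent.P093.N.Co

section Coalg

variable {k A M N Q V W : Type*} [Field k] [AddCommGroup A] [Module k A] [Coalgebra k A]
  [AddCommGroup M] [Module k M] [AddCommGroup N] [Module k N] [AddCommGroup Q] [Module k Q]
  [AddCommGroup V] [Module k V] [AddCommGroup W] [Module k W]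

theorem exists_retr {i : M →ₗ[k] N} (hi : Function.Injective i) :
    ∃ l : N →ₗ[k] M, l ∘ₗ i = LinearMap.id :=
  LinearMap.exists_leftInverse_of_injective i (LinearMap.ker_eq_bot.mpr hi)

theorem exists_sect {q : N →ₗ[k] Q} (hq : Function.Surjective q) :
    ∃ t : Q →ₗ[k] N, q ∘ₗ t = LinearMap.id :=
  LinearMap.exists_rightInverse_of_surjective q (LinearMap.range_eq_top.mpr hq)

theorem lTensor_inj {i : M →ₗ[k] N} (hi : Function.Injective i) :
    Function.Injective (i.lTensor A) := by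
  obtain ⟨l, hl⟩ := exists_retr hi
  intro x y h
  have h1 : (l ∘ₗ i).lTensor A x = (l ∘ₗ i).lTensor A y := by
    rw [LinearMap.lTensor_comp, LinearMap.comp_apply, LinearMap.comp_apply, h]
  rwa [hl, LinearMap.lTensor_id] at h1

/-- A comodule structure descends along a surjection. -/
theorem IsCoact.of_surj {ρ : M →ₗ[k] A ⊗[k] M} {σ : N →ₗ[k] A ⊗[k] N} (h : IsCoact ρ)
    {f : M →ₗ[k] N} (hf : Colin ρ σ f) (hs : Function.Surjective f) : IsCoact σ := by
  have h0 : σ ∘ₗ f = f.lTensor A ∘ₗ ρ := hf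
  constructor
  · refine (LinearMap.cancel_right hs).mp ?_
    have h1 : (comul (R := k)).rTensor N ∘ₗ f.lTensor A =
        f.lTensor (A ⊗[k] A) ∘ₗ (comul (R := k) (A := A)).rTensor M := by
      rw [LinearMap.rTensor_comp_lTensor, LinearMap.lTensor_comp_rTensor]
    have h2 : (TensorProduct.assoc k A A N).toLinearMap ∘ₗ f.lTensor (A ⊗[k] A) =
        (f.lTensor A).lTensor A ∘ₗ (TensorProduct.assoc k A A M).toLinearMap := by
      ext a b m
      simp
    calc ((TensorProduct.assoc k A A N).toLinearMap ∘ₗ (comul (R := k)).rTensor N ∘ₗ σ) ∘ₗ f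
        = (TensorProduct.assoc k A A N).toLinearMap ∘ₗ (comul (R := k)).rTensor N ∘ₗ (σ ∘ₗ f) :=
          rfl
      _ = (TensorProduct.assoc k A A N).toLinearMap ∘ₗ
            ((comul (R := k)).rTensor N ∘ₗ f.lTensor A) ∘ₗ ρ := by rw [h0]; rfl
      _ = ((TensorProduct.assoc k A A N).toLinearMap ∘ₗ f.lTensor (A ⊗[k] A)) ∘ₗ
            (comul (R := k) (A := A)).rTensor M ∘ₗ ρ := by rw [h1]; rfl
      _ = (f.lTensor A).lTensor A ∘ₗ ((TensorProduct.assoc k A A M).toLinearMap ∘ₗ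
            (comul (R := k) (A := A)).rTensor M ∘ₗ ρ) := by rw [h2]; rfl
      _ = ((f.lTensor A).lTensor A ∘ₗ ρ.lTensor A) ∘ₗ ρ := by rw [h.coassoc]; rfl
      _ = (σ.lTensor A ∘ₗ f.lTensor A) ∘ₗ ρ := by
          rw [← LinearMap.lTensor_comp, ← h0, LinearMap.lTensor_comp]
      _ = σ.lTensor A ∘ₗ (σ ∘ₗ f) := by rw [h0]; rfl
      _ = (σ.lTensor A ∘ₗ σ) ∘ₗ f := rfl
  · refine (LinearMap.cancel_right hs).mp ?_
    have h1 : (counit (R := k)).rTensor N ∘ₗ f.lTensor A =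
        f.lTensor k ∘ₗ (counit (R := k) (A := A)).rTensor M := by
      rw [LinearMap.rTensor_comp_lTensor, LinearMap.lTensor_comp_rTensor]
    have h2 : (TensorProduct.lid k N).toLinearMap ∘ₗ f.lTensor k =
        f ∘ₗ (TensorProduct.lid k M).toLinearMap := by
      ext m
      simp
    calc ((TensorProduct.lid k N).toLinearMap ∘ₗ (counit (R := k)).rTensor N ∘ₗ σ) ∘ₗ f
        = (TensorProduct.lid k N).toLinearMap ∘ₗ (counit (R := k)).rTensor N ∘ₗ (σ ∘ₗ f) := rfl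
      _ = (TensorProduct.lid k N).toLinearMap ∘ₗ
            ((counit (R := k)).rTensor N ∘ₗ f.lTensor A) ∘ₗ ρ := by rw [h0]; rfl
      _ = ((TensorProduct.lid k N).toLinearMap ∘ₗ f.lTensor k) ∘ₗ
            (counit (R := k) (A := A)).rTensor M ∘ₗ ρ := by rw [h1]; rfl
      _ = f ∘ₗ ((TensorProduct.lid k M).toLinearMap ∘ₗ
            (counit (R := k) (A := A)).rTensor M ∘ₗ ρ) := by rw [h2]; rfl
      _ = LinearMap.id ∘ₗ f := by rw [h.counital]; rfl

/-- A comodule structure restricts along an injection. -/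
theorem IsCoact.of_inj {ρ : M →ₗ[k] A ⊗[k] M} {σ : N →ₗ[k] A ⊗[k] N} (h : IsCoact σ)
    {f : M →ₗ[k] N} (hf : Colin ρ σ f) (hs : Function.Injective f) : IsCoact ρ := by
  have h0 : f.lTensor A ∘ₗ ρ = σ ∘ₗ f := hf.symm
  constructor
  · have hinj : Function.Injective ((f.lTensor A).lTensor A) := lTensor_inj (lTensor_inj hs)
    refine (LinearMap.cancel_left hinj).mp ?_
    have h1 : (comul (R := k)).rTensor N ∘ₗ f.lTensor A =
        f.lTensor (A ⊗[k] A) ∘ₗ (comul (R := k) (A := A)).rTensor M := by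
      rw [LinearMap.rTensor_comp_lTensor, LinearMap.lTensor_comp_rTensor]
    have h2 : (TensorProduct.assoc k A A N).toLinearMap ∘ₗ f.lTensor (A ⊗[k] A) =
        (f.lTensor A).lTensor A ∘ₗ (TensorProduct.assoc k A A M).toLinearMap := by
      ext a b m
      simp
    calc (f.lTensor A).lTensor A ∘ₗ ((TensorProduct.assoc k A A M).toLinearMap ∘ₗ
            (comul (R := k) (A := A)).rTensor M ∘ₗ ρ)
        = ((TensorProduct.assoc k A A N).toLinearMap ∘ₗ f.lTensor (A ⊗[k] A)) ∘ₗ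
            (comul (R := k) (A := A)).rTensor M ∘ₗ ρ := by rw [h2]; rfl
      _ = (TensorProduct.assoc k A A N).toLinearMap ∘ₗ
            ((comul (R := k)).rTensor N ∘ₗ f.lTensor A) ∘ₗ ρ := by rw [h1]; rfl
      _ = ((TensorProduct.assoc k A A N).toLinearMap ∘ₗ (comul (R := k)).rTensor N ∘ₗ σ) ∘ₗ f := by
          rw [LinearMap.comp_assoc, h0]; rfl
      _ = (σ.lTensor A ∘ₗ σ) ∘ₗ f := by rw [h.coassoc]
      _ = σ.lTensor A ∘ₗ (f.lTensor A ∘ₗ ρ) := by rw [h0]; rfl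
      _ = (σ ∘ₗ f).lTensor A ∘ₗ ρ := by rw [LinearMap.lTensor_comp]; rfl
      _ = (f.lTensor A).lTensor A ∘ₗ (ρ.lTensor A ∘ₗ ρ) := by
          rw [← h0, LinearMap.lTensor_comp]; rfl
  · refine (LinearMap.cancel_left hs).mp ?_
    have h1 : (counit (R := k)).rTensor N ∘ₗ f.lTensor A =
        f.lTensor k ∘ₗ (counit (R := k) (A := A)).rTensor M := by
      rw [LinearMap.rTensor_comp_lTensor, LinearMap.lTensor_comp_rTensor]
    have h2 : (TensorProduct.lid k N).toLinearMap ∘ₗ f.lTensor k =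
        f ∘ₗ (TensorProduct.lid k M).toLinearMap := by
      ext m
      simp
    calc f ∘ₗ ((TensorProduct.lid k M).toLinearMap ∘ₗ
            (counit (R := k) (A := A)).rTensor M ∘ₗ ρ)
        = ((TensorProduct.lid k N).toLinearMap ∘ₗ f.lTensor k) ∘ₗ
            (counit (R := k) (A := A)).rTensor M ∘ₗ ρ := by rw [h2]; rfl
      _ = (TensorProduct.lid k N).toLinearMap ∘ₗ
            ((counit (R := k)).rTensor N ∘ₗ f.lTensor A) ∘ₗ ρ := by rw [h1]; rfl
      _ = ((TensorProduct.lid k N).toLinearMap ∘ₗ (counit (R := k)).rTensor N ∘ₗ σ) ∘ₗ f := by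
          rw [LinearMap.comp_assoc, h0]; rfl
      _ = f ∘ₗ LinearMap.id := by rw [h.counital]; rfl

/-- `K` is a subcomodule. -/
def SubCo (ρ : M →ₗ[k] A ⊗[k] M) (K : Submodule k M) : Prop :=
  ∀ x ∈ K, ρ x ∈ LinearMap.range (K.subtype.lTensor A)

theorem exact_lTensor {i : M →ₗ[k] N} {q : N →ₗ[k] Q} (h : Function.Exact i q) :
    Function.Exact (i.lTensor A) (q.lTensor A) :=
  Module.Flat.lTensor_exact A h

theorem subCo_ker {ρ : M →ₗ[k] A ⊗[k] M} {σ : N →ₗ[k] A ⊗[k] N} {f : M →ₗ[k] N}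
    (hf : Colin ρ σ f) : SubCo ρ (LinearMap.ker f) := by
  intro x hx
  have hex : Function.Exact (LinearMap.ker f).subtype f := LinearMap.exact_subtype_ker_map f
  have := (exact_lTensor (A := A) hex (ρ x)).mp (by rw [← hf.apply, LinearMap.mem_ker.mp hx, map_zero])
  exact this

theorem subCo_range {ρ : M →ₗ[k] A ⊗[k] M} {σ : N →ₗ[k] A ⊗[k] N} {f : M →ₗ[k] N}
    (hf : Colin ρ σ f) : SubCo σ (LinearMap.range f) := by
  rintro _ ⟨x, rfl⟩
  rw [hf.apply]
  refine ⟨(f.rangeRestrict).lTensor A (ρ x), ?_⟩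
  rw [← LinearMap.comp_apply, ← LinearMap.lTensor_comp]
  rfl

/-- The coaction on a quotient. -/
noncomputable def quotCo (ρ : M →ₗ[k] A ⊗[k] M) (K : Submodule k M) (h : SubCo ρ K) :
    (M ⧸ K) →ₗ[k] A ⊗[k] (M ⧸ K) :=
  K.liftQ (K.mkQ.lTensor A ∘ₗ ρ) (by
    intro x hx
    obtain ⟨y, hy⟩ := h x hx
    rw [LinearMap.mem_ker, LinearMap.comp_apply, ← hy, ← LinearMap.comp_apply,
      ← LinearMap.lTensor_comp]
    have : K.mkQ ∘ₗ K.subtype = 0 := by
      ext z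
      simp
    rw [this, LinearMap.lTensor_zero]
    rfl)

theorem colin_mkQ (ρ : M →ₗ[k] A ⊗[k] M) (K : Submodule k M) (h : SubCo ρ K) :
    Colin ρ (quotCo ρ K h) K.mkQ := by
  unfold Colin quotCo
  exact Submodule.liftQ_mkQ _ _ _

theorem IsCoact.quot {ρ : M →ₗ[k] A ⊗[k] M} (hρ : IsCoact ρ) (K : Submodule k M)
    (h : SubCo ρ K) : IsCoact (quotCo ρ K h) :=
  hρ.of_surj (colin_mkQ ρ K h) (Submodule.mkQ_surjective K)

/-- The coaction on a subcomodule. -/
theorem exists_sub {ρ : M →ₗ[k] A ⊗[k] M} {K : Submodule k M} (h : SubCo ρ K) :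
    ∃ κ : K →ₗ[k] A ⊗[k] K, Colin κ ρ K.subtype := by
  obtain ⟨l, hl⟩ := exists_retr (K.subtype_injective)
  refine ⟨l.lTensor A ∘ₗ ρ ∘ₗ K.subtype, ?_⟩
  unfold Colin
  ext x
  obtain ⟨y, hy⟩ := h x.1 x.2
  simp only [LinearMap.comp_apply, Submodule.subtype_apply]
  rw [← hy, ← LinearMap.comp_apply (l.lTensor A), ← LinearMap.lTensor_comp, hl,
    LinearMap.lTensor_id, LinearMap.id_apply]

/-- The quotient of an injective comodule by an injective subcomodule is injective. -/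
theorem Inj.coker {ρ : M →ₗ[k] A ⊗[k] M} {σ : N →ₗ[k] A ⊗[k] N} {τ : Q →ₗ[k] A ⊗[k] Q}
    (hM : Inj ρ) (hN : Inj σ) (hσ : IsCoact σ) {i : M →ₗ[k] N} {q : N →ₗ[k] Q}
    (hi : Colin ρ σ i) (hq : Colin σ τ q) (hinj : Function.Injective i)
    (hex : Function.Exact i q) (hsurj : Function.Surjective q) : Inj τ := by
  obtain ⟨l, hl⟩ := exists_retr hinj
  obtain ⟨g, hg, hgi⟩ := hM.split hσ hi hl
  obtain ⟨t, ht⟩ := exists_sect hsurj
  have hqi : q ∘ₗ i = 0 := by
    ext x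
    exact (hex (i x)).mpr ⟨x, rfl⟩
  let e : N →ₗ[k] N := LinearMap.id - i ∘ₗ g
  have he : Colin σ σ e := (Colin.id σ).sub (hi.comp hg)
  have hei : e ∘ₗ i = 0 := by
    ext x
    have := LinearMap.congr_fun hgi x
    simp only [LinearMap.comp_apply, LinearMap.id_apply] at this
    simp [e, this]
  have hs : (e ∘ₗ t) ∘ₗ q = e := by
    ext n
    have h1 : q (t (q n) - n) = 0 := by
      have := LinearMap.congr_fun ht (q n)
      simp only [LinearMap.comp_apply, LinearMap.id_apply] at this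
      rw [map_sub, this, sub_self]
    obtain ⟨x, hx⟩ := (hex _).mp h1
    have h2 : e (t (q n) - n) = 0 := by rw [← hx]; exact LinearMap.congr_fun hei x
    rw [map_sub, sub_eq_zero] at h2
    exact h2
  have hqe : q ∘ₗ e = q := by
    have : q ∘ₗ e = q - (q ∘ₗ i) ∘ₗ g := by
      ext x
      simp [e]
    rw [this, hqi, LinearMap.zero_comp, sub_zero]
  refine hN.retract (i := e ∘ₗ t) (s := q) ?_ hq ?_
  · unfold Colin at *
    refine (LinearMap.cancel_right hsurj).mp ?_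
    rw [LinearMap.comp_assoc, hs, he, LinearMap.comp_assoc, hq, ← LinearMap.comp_assoc,
      ← LinearMap.lTensor_comp, hs]
  · rw [← LinearMap.comp_assoc, hqe, ht]

/-- An extension of injective comodules is injective. -/
theorem Inj.ext {ρ : M →ₗ[k] A ⊗[k] M} {σ : N →ₗ[k] A ⊗[k] N} {τ : Q →ₗ[k] A ⊗[k] Q}
    (hM : Inj ρ) (hQ : Inj τ) (hσ : IsCoact σ) {i : M →ₗ[k] N} {q : N →ₗ[k] Q}
    (hi : Colin ρ σ i) (hq : Colin σ τ q) (hinj : Function.Injective i)
    (hex : Function.Exact i q) (hsurj : Function.Surjective q) : Inj σ := by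
  obtain ⟨l, hl⟩ := exists_retr hinj
  obtain ⟨g, hg, hgi⟩ := hM.split hσ hi hl
  obtain ⟨t, ht⟩ := exists_sect hsurj
  have hqi : q ∘ₗ i = 0 := by
    ext x
    exact (hex (i x)).mpr ⟨x, rfl⟩
  let e : N →ₗ[k] N := LinearMap.id - i ∘ₗ g
  have he : Colin σ σ e := (Colin.id σ).sub (hi.comp hg)
  have hei : e ∘ₗ i = 0 := by
    ext x
    have := LinearMap.congr_fun hgi x
    simp only [LinearMap.comp_apply, LinearMap.id_apply] at this
    simp [e, this]
  have hs : (e ∘ₗ t) ∘ₗ q = e := by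
    ext n
    have h1 : q (t (q n) - n) = 0 := by
      have := LinearMap.congr_fun ht (q n)
      simp only [LinearMap.comp_apply, LinearMap.id_apply] at this
      rw [map_sub, this, sub_self]
    obtain ⟨x, hx⟩ := (hex _).mp h1
    have h2 : e (t (q n) - n) = 0 := by rw [← hx]; exact LinearMap.congr_fun hei x
    rw [map_sub, sub_eq_zero] at h2
    exact h2
  have hsc : Colin τ σ (e ∘ₗ t) := by
    unfold Colin at *
    refine (LinearMap.cancel_right hsurj).mp ?_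
    rw [LinearMap.comp_assoc, hs, he, LinearMap.comp_assoc, hq, ← LinearMap.comp_assoc,
      ← LinearMap.lTensor_comp, hs]
  obtain ⟨rM, hrM, hrM'⟩ := hM
  obtain ⟨rQ, hrQ, hrQ'⟩ := hQ
  refine ⟨i ∘ₗ rM ∘ₗ g.lTensor A + (e ∘ₗ t) ∘ₗ rQ ∘ₗ q.lTensor A,
    (hi.comp (hrM.comp (colin_cof_map g))).add (hsc.comp (hrQ.comp (colin_cof_map q))), ?_⟩
  have h1 : g.lTensor A ∘ₗ σ = ρ ∘ₗ g := hg.symm
  have h2 : q.lTensor A ∘ₗ σ = τ ∘ₗ q := hq.symm
  calc (i ∘ₗ rM ∘ₗ g.lTensor A + (e ∘ₗ t) ∘ₗ rQ ∘ₗ q.lTensor A) ∘ₗ σ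
      = i ∘ₗ rM ∘ₗ (g.lTensor A ∘ₗ σ) + (e ∘ₗ t) ∘ₗ rQ ∘ₗ (q.lTensor A ∘ₗ σ) := by
        rw [LinearMap.add_comp]; rfl
    _ = i ∘ₗ (rM ∘ₗ ρ) ∘ₗ g + (e ∘ₗ t) ∘ₗ (rQ ∘ₗ τ) ∘ₗ q := by rw [h1, h2]; rfl
    _ = i ∘ₗ g + (e ∘ₗ t) ∘ₗ q := by rw [hrM', hrQ']; rfl
    _ = LinearMap.id := by rw [hs]; simp [e]

end Coalg

end Vale.Agent.P093.N.Co
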