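import Vale.Agent.P093.N.Co.Conil

/-!
# P093, part N : comodule calculus (5) : total integrals, restriction, direct sums of copies
-/

open TensorProduct Coalgebra

set_option linter.unusedSectionVars false

namespace Vale.Agent.P093.N.Co

/-- A map through which a colinear map factors is colinear. -/
theorem Colin.of_surj {k A M N Q : Type*} [CommSemiring k] [AddCommMonoid A] [Module k A]
    [AddCommMonoid M] [Module k M] [AddCommMonoid N] [Module k N]
    [AddCommMonoid Q] [Module k Q] {ρ : M →ₗ[k] A ⊗[k] M} {σ : N →ₗ[k] A ⊗[k] N}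
    {τ : Q →ₗ[k] A ⊗[k] Q} {g : M →ₗ[k] N} {f : N →ₗ[k] Q} (hg : Colin ρ σ g)
    (hs : Function.Surjective g) (h : Colin ρ τ (f ∘ₗ g)) : Colin σ τ f := by
  unfold Colin at *
  refine (LinearMap.cancel_right hs).mp ?_
  rw [LinearMap.comp_assoc, h, LinearMap.comp_assoc, hg, LinearMap.lTensor_comp,
    LinearMap.comp_assoc]

/-- A map whose composite with a colinear injection is colinear is colinear. -/
theorem Colin.of_inj {k A M N Q : Type*} [Field k] [AddCommGroup A] [Module k A] [Coalgebra k A]
    [AddCommGroup M] [Module k M] [AddCommGroup N] [Module k N]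
    [AddCommGroup Q] [Module k Q] {ρ : M →ₗ[k] A ⊗[k] M} {σ : N →ₗ[k] A ⊗[k] N}
    {τ : Q →ₗ[k] A ⊗[k] Q} {f : M →ₗ[k] N} {g : N →ₗ[k] Q} (hg : Colin σ τ g)
    (hs : Function.Injective g) (h : Colin ρ τ (g ∘ₗ f)) : Colin ρ σ f := by
  unfold Colin at *
  refine (LinearMap.cancel_left (lTensor_inj (A := A) hs)).mp ?_
  rw [← LinearMap.comp_assoc, ← hg, LinearMap.comp_assoc, h, LinearMap.lTensor_comp,
    LinearMap.comp_assoc]

section Self

variable {k A : Type*} [CommSemiring k] [AddCommMonoid A] [Module k A] [Coalgebra k A]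

/-- `A` is a comodule over itself. -/
theorem isCoact_comul : IsCoact (comul (R := k) (A := A)) where
  coassoc := Coalgebra.coassoc
  counital := by
    rw [Coalgebra.rTensor_counit_comp_comul]
    ext a
    simp

/-- `A` is injective over itself. -/
theorem inj_comul : Inj (comul (R := k) (A := A)) := by
  refine ⟨(TensorProduct.rid k A).toLinearMap ∘ₗ (counit (R := k)).lTensor A, ?_, ?_⟩
  · unfold Colin
    ext a b
    simp only [cof, TensorProduct.AlgebraTensorModule.curry_apply, TensorProduct.curry_apply,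
      LinearMap.coe_restrictScalars, LinearMap.coe_comp, Function.comp_apply,
      LinearEquiv.coe_coe, LinearMap.rTensor_tmul, LinearMap.lTensor_tmul,
      TensorProduct.rid_tmul, map_smul]
    generalize comul (R := k) a = x
    induction x with
    | zero => simp
    | add x y hx hy => rw [add_tmul, map_add, map_add, smul_add, hx, hy]
    | tmul c d => simp
  · rw [LinearMap.comp_assoc, Coalgebra.lTensor_counit_comp_comul]
    ext a
    simp

end Self

section Triv

variable {k A M N V : Type*} [CommSemiring k] [AddCommMonoid A] [Module k A] [Coalgebra k A]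
  [AddCommMonoid M] [Module k M] [AddCommMonoid N] [Module k N] [AddCommMonoid V] [Module k V]

/-- The coaction of `M ⊗ V`, `V` with trivial coaction. -/
noncomputable def mtens (V : Type*) [AddCommMonoid V] [Module k V] (ρ : M →ₗ[k] A ⊗[k] M) :
    M ⊗[k] V →ₗ[k] A ⊗[k] (M ⊗[k] V) :=
  (TensorProduct.assoc k A M V).toLinearMap ∘ₗ ρ.rTensor V

theorem mtens_comul : mtens V (comul (R := k) (A := A)) = cof k A V := rfl

theorem mtens_tmul (ρ : M →ₗ[k] A ⊗[k] M) (m : M) (v : V) :
    mtens V ρ (m ⊗ₜ v) = TensorProduct.assoc k A M V (ρ m ⊗ₜ v) := by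
  simp [mtens]

theorem Colin.mtens {ρ : M →ₗ[k] A ⊗[k] M} {σ : N →ₗ[k] A ⊗[k] N} {f : M →ₗ[k] N}
    (h : Colin ρ σ f) : Colin (mtens V ρ) (mtens V σ) (f.rTensor V) := by
  unfold Colin
  refine TensorProduct.ext' fun m v => ?_
  simp only [LinearMap.comp_apply, LinearMap.rTensor_tmul, mtens_tmul, h.apply]
  generalize ρ m = x
  induction x with
  | zero => simp
  | add x y hx hy => simp only [map_add, add_tmul, hx, hy]
  | tmul a m' => simp

theorem Colin.mtens_right (ρ : M →ₗ[k] A ⊗[k] M) {W : Type*} [AddCommMonoid W] [Module k W]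
    (f : V →ₗ[k] W) : Colin (Co.mtens V ρ) (Co.mtens W ρ) (f.lTensor M) := by
  unfold Colin
  refine TensorProduct.ext' fun m v => ?_
  simp only [LinearMap.comp_apply, LinearMap.lTensor_tmul, mtens_tmul]
  generalize ρ m = x
  induction x with
  | zero => simp
  | add x y hx hy => simp only [map_add, add_tmul, hx, hy]
  | tmul a m' => simp

theorem IsCoact.mtens {ρ : M →ₗ[k] A ⊗[k] M} (h : IsCoact ρ) : IsCoact (mtens V ρ) where
  coassoc := by
    refine TensorProduct.ext' fun m v => ?_
    have h1 := h.coassoc_apply m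
    have e1 : ∀ x : A ⊗[k] M, TensorProduct.assoc k A A (M ⊗[k] V)
        ((comul (R := k)).rTensor (M ⊗[k] V) (TensorProduct.assoc k A M V (x ⊗ₜ v))) =
        (TensorProduct.assoc k A M V).toLinearMap.lTensor A
          (TensorProduct.assoc k A (A ⊗[k] M) V
            (TensorProduct.assoc k A A M ((comul (R := k)).rTensor M x) ⊗ₜ v)) := by
      intro x
      induction x with
      | zero => simp
      | add x y hx hy => simp only [map_add, add_tmul, hx, hy]
      | tmul a m' =>
        simp only [TensorProduct.assoc_tmul, LinearMap.rTensor_tmul]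
        generalize comul (R := k) a = z
        induction z with
        | zero => simp
        | add x y hx hy => simp only [map_add, add_tmul, hx, hy]
        | tmul b c => simp
    have e2 : ∀ x : A ⊗[k] M, (Co.mtens V ρ).lTensor A
        (TensorProduct.assoc k A M V (x ⊗ₜ v)) =
        (TensorProduct.assoc k A M V).toLinearMap.lTensor A
          (TensorProduct.assoc k A (A ⊗[k] M) V (ρ.lTensor A x ⊗ₜ v)) := by
      intro x
      induction x with
      | zero => simp
      | add x y hx hy => simp only [map_add, add_tmul, hx, hy]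
      | tmul a m' => simp [mtens_tmul]
    simp only [LinearMap.comp_apply, LinearEquiv.coe_coe, mtens_tmul]
    rw [e1, e2, h1]
  counital := by
    refine TensorProduct.ext' fun m v => ?_
    have h1 := h.counital_apply m
    have e1 : ∀ x : A ⊗[k] M, TensorProduct.lid k (M ⊗[k] V)
        ((counit (R := k)).rTensor (M ⊗[k] V) (TensorProduct.assoc k A M V (x ⊗ₜ v))) =
        (TensorProduct.lid k M ((counit (R := k)).rTensor M x)) ⊗ₜ v := by
      intro x
      induction x with
      | zero => simp
      | add x y hx hy => simp only [map_add, add_tmul, hx, hy]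
      | tmul a m' => simp [TensorProduct.smul_tmul']
    simp only [LinearMap.comp_apply, LinearEquiv.coe_coe, mtens_tmul]
    rw [e1, h1]
    rfl

theorem Inj.mtens {ρ : M →ₗ[k] A ⊗[k] M} (h : Inj ρ) : Inj (mtens V ρ) := by
  obtain ⟨r, hr, hr'⟩ := h
  refine ⟨r.rTensor V ∘ₗ (TensorProduct.assoc k A M V).symm.toLinearMap, ?_, ?_⟩
  · refine (hr.mtens (V := V)).comp ?_
    unfold Colin
    refine TensorProduct.ext' fun a x => ?_
    induction x with
    | zero => simp
    | add x y hx hy => simp only [tmul_add, map_add, hx, hy]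
    | tmul m v =>
      simp only [LinearMap.comp_apply, LinearEquiv.coe_coe, TensorProduct.assoc_symm_tmul,
        mtens_tmul, cof, LinearMap.rTensor_tmul]
      generalize comul (R := k) a = z
      induction z with
      | zero => simp
      | add x y hx hy => simp only [map_add, add_tmul, hx, hy]
      | tmul b c => simp
  · unfold Co.mtens
    have h1 : (TensorProduct.assoc k A M V).symm.toLinearMap ∘ₗ
        (TensorProduct.assoc k A M V).toLinearMap = LinearMap.id := by
      ext
      simp
    calc (r.rTensor V ∘ₗ (TensorProduct.assoc k A M V).symm.toLinearMap) ∘ₗ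
          (TensorProduct.assoc k A M V).toLinearMap ∘ₗ ρ.rTensor V
        = r.rTensor V ∘ₗ ((TensorProduct.assoc k A M V).symm.toLinearMap ∘ₗ
          (TensorProduct.assoc k A M V).toLinearMap) ∘ₗ ρ.rTensor V := rfl
      _ = (r ∘ₗ ρ).rTensor V := by rw [h1, LinearMap.id_comp, ← LinearMap.rTensor_comp]
      _ = LinearMap.id := by rw [hr', LinearMap.rTensor_id]

end Triv

section Fin

variable {k A M N : Type*} [CommSemiring k] [AddCommMonoid A] [Module k A] [Coalgebra k A]
  [AddCommMonoid M] [Module k M] [AddCommMonoid N] [Module k N]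

/-- The coaction on the direct sum `J →₀ M` of copies of `M`. -/
noncomputable def fco (J : Type*) (ρ : M →ₗ[k] A ⊗[k] M) :
    (J →₀ M) →ₗ[k] A ⊗[k] (J →₀ M) :=
  Finsupp.lsum k fun j => (Finsupp.lsingle j).lTensor A ∘ₗ ρ

@[simp] theorem fco_single (J : Type*) (ρ : M →ₗ[k] A ⊗[k] M) (j : J) (m : M) :
    fco J ρ (Finsupp.single j m) = (Finsupp.lsingle j).lTensor A (ρ m) := by
  simp [fco]

theorem colin_lsingle {J : Type*} (ρ : M →ₗ[k] A ⊗[k] M) (j : J) :
    Colin ρ (fco J ρ) (Finsupp.lsingle j) := by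
  unfold Colin
  ext m
  simp

/-- A map out of a direct sum of copies is colinear if it is so on each summand. -/
theorem colin_lsum {J : Type*} {ρ : M →ₗ[k] A ⊗[k] M} {σ : N →ₗ[k] A ⊗[k] N}
    {f : (J →₀ M) →ₗ[k] N} (h : ∀ j, Colin ρ σ (f ∘ₗ Finsupp.lsingle j)) :
    Colin (fco J ρ) σ f := by
  unfold Colin at *
  refine Finsupp.lhom_ext' fun j => ?_
  have := h j
  rw [LinearMap.comp_assoc, this, LinearMap.comp_assoc]
  have h2 : fco J ρ ∘ₗ Finsupp.lsingle j = (Finsupp.lsingle j).lTensor A ∘ₗ ρ := by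
    ext m
    simp
  rw [h2, ← LinearMap.comp_assoc, ← LinearMap.lTensor_comp]

theorem IsCoact.fco {J : Type*} {ρ : M →ₗ[k] A ⊗[k] M} (h : IsCoact ρ) : IsCoact (fco J ρ) where
  coassoc := by
    refine Finsupp.lhom_ext' fun j => ?_
    have h0 : Co.fco J ρ ∘ₗ Finsupp.lsingle j = (Finsupp.lsingle j).lTensor A ∘ₗ ρ :=
      colin_lsingle ρ j
    have h1 : (comul (R := k)).rTensor (J →₀ M) ∘ₗ (Finsupp.lsingle j).lTensor A =
        (Finsupp.lsingle j).lTensor (A ⊗[k] A) ∘ₗ (comul (R := k) (A := A)).rTensor M := by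
      rw [LinearMap.rTensor_comp_lTensor, LinearMap.lTensor_comp_rTensor]
    have h2 : (TensorProduct.assoc k A A (J →₀ M)).toLinearMap ∘ₗ
        (Finsupp.lsingle (R := k) j).lTensor (A ⊗[k] A) =
        ((Finsupp.lsingle j).lTensor A).lTensor A ∘ₗ (TensorProduct.assoc k A A M).toLinearMap := by
      ext a b m
      simp
    calc ((TensorProduct.assoc k A A (J →₀ M)).toLinearMap ∘ₗ
            (comul (R := k)).rTensor (J →₀ M) ∘ₗ Co.fco J ρ) ∘ₗ Finsupp.lsingle j
        = (TensorProduct.assoc k A A (J →₀ M)).toLinearMap ∘ₗ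
            (comul (R := k)).rTensor (J →₀ M) ∘ₗ (Co.fco J ρ ∘ₗ Finsupp.lsingle j) := rfl
      _ = (TensorProduct.assoc k A A (J →₀ M)).toLinearMap ∘ₗ
            ((comul (R := k)).rTensor (J →₀ M) ∘ₗ (Finsupp.lsingle j).lTensor A) ∘ₗ ρ := by
          rw [h0]; rfl
      _ = ((TensorProduct.assoc k A A (J →₀ M)).toLinearMap ∘ₗ
            (Finsupp.lsingle j).lTensor (A ⊗[k] A)) ∘ₗ (comul (R := k)).rTensor M ∘ₗ ρ := by
          rw [h1]; rfl
      _ = ((Finsupp.lsingle j).lTensor A).lTensor A ∘ₗ
            ((TensorProduct.assoc k A A M).toLinearMap ∘ₗ (comul (R := k)).rTensor M ∘ₗ ρ) := by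
          rw [h2]; rfl
      _ = (((Finsupp.lsingle j).lTensor A).lTensor A ∘ₗ ρ.lTensor A) ∘ₗ ρ := by
          rw [h.coassoc]; rfl
      _ = ((Co.fco J ρ).lTensor A ∘ₗ (Finsupp.lsingle j).lTensor A) ∘ₗ ρ := by
          rw [← LinearMap.lTensor_comp, ← h0, LinearMap.lTensor_comp]
      _ = (Co.fco J ρ).lTensor A ∘ₗ (Co.fco J ρ ∘ₗ Finsupp.lsingle j) := by rw [h0]; rfl
      _ = ((Co.fco J ρ).lTensor A ∘ₗ Co.fco J ρ) ∘ₗ Finsupp.lsingle j := rfl
  counital := by
    refine Finsupp.lhom_ext' fun j => ?_
    have h0 : Co.fco J ρ ∘ₗ Finsupp.lsingle j = (Finsupp.lsingle j).lTensor A ∘ₗ ρ :=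
      colin_lsingle ρ j
    have h1 : (counit (R := k)).rTensor (J →₀ M) ∘ₗ (Finsupp.lsingle j).lTensor A =
        (Finsupp.lsingle j).lTensor k ∘ₗ (counit (R := k) (A := A)).rTensor M := by
      rw [LinearMap.rTensor_comp_lTensor, LinearMap.lTensor_comp_rTensor]
    have h2 : (TensorProduct.lid k (J →₀ M)).toLinearMap ∘ₗ
        (Finsupp.lsingle (R := k) j).lTensor k =
        Finsupp.lsingle j ∘ₗ (TensorProduct.lid k M).toLinearMap := by
      ext m
      simp
    calc ((TensorProduct.lid k (J →₀ M)).toLinearMap ∘ₗ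
            (counit (R := k)).rTensor (J →₀ M) ∘ₗ Co.fco J ρ) ∘ₗ Finsupp.lsingle j
        = (TensorProduct.lid k (J →₀ M)).toLinearMap ∘ₗ
            (counit (R := k)).rTensor (J →₀ M) ∘ₗ (Co.fco J ρ ∘ₗ Finsupp.lsingle j) := rfl
      _ = (TensorProduct.lid k (J →₀ M)).toLinearMap ∘ₗ
            ((counit (R := k)).rTensor (J →₀ M) ∘ₗ (Finsupp.lsingle j).lTensor A) ∘ₗ ρ := by
          rw [h0]; rfl
      _ = ((TensorProduct.lid k (J →₀ M)).toLinearMap ∘ₗ
            (Finsupp.lsingle j).lTensor k) ∘ₗ (counit (R := k)).rTensor M ∘ₗ ρ := by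
          rw [h1]; rfl
      _ = Finsupp.lsingle j ∘ₗ
            ((TensorProduct.lid k M).toLinearMap ∘ₗ (counit (R := k)).rTensor M ∘ₗ ρ) := by
          rw [h2]; rfl
      _ = LinearMap.id ∘ₗ Finsupp.lsingle j := by rw [h.counital]; rfl

/-- A direct sum of copies of an injective comodule is injective. -/
theorem Inj.fco {J : Type*} {ρ : M →ₗ[k] A ⊗[k] M} (h : Inj ρ) : Inj (fco J ρ) := by
  classical
  obtain ⟨r, hr, hr'⟩ := h
  -- `A ⊗ (J →₀ M) ≃ (J →₀ A ⊗ M)`, then apply `r` in every component
  let D : A ⊗[k] (J →₀ M) →ₗ[k] (J →₀ M) :=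
    Finsupp.mapRange.linearMap r ∘ₗ (TensorProduct.finsuppRight k k A M J).toLinearMap
  have hD : ∀ (a : A) (j : J) (m : M), D (a ⊗ₜ Finsupp.single j m) =
      Finsupp.single j (r (a ⊗ₜ m)) := by
    intro a j m
    ext i
    simp only [D, LinearMap.comp_apply, LinearEquiv.coe_coe, Finsupp.mapRange.linearMap_apply,
      Finsupp.mapRange_apply, TensorProduct.finsuppRight_apply_tmul_apply]
    by_cases hij : i = j
    · subst hij
      simp
    · rw [Finsupp.single_eq_of_ne hij, Finsupp.single_eq_of_ne hij, tmul_zero, map_zero]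
  have hDx : ∀ (x : A ⊗[k] M) (j : J), D ((Finsupp.lsingle j).lTensor A x) =
      Finsupp.single j (r x) := by
    intro x j
    induction x with
    | zero => simp
    | add x y hx hy => simp only [map_add, hx, hy, Finsupp.single_add]
    | tmul a m => simp [hD]
  refine ⟨D, ?_, ?_⟩
  · unfold Colin
    refine TensorProduct.ext' fun a x => ?_
    induction x using Finsupp.induction_linear with
    | zero => simp
    | add x y hx hy => simp only [tmul_add, map_add, hx, hy]
    | single j m =>
      simp only [LinearMap.comp_apply, hD, fco_single]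
      have h1 := hr.apply (a ⊗ₜ m)
      rw [h1]
      simp only [cof, LinearMap.comp_apply, LinearEquiv.coe_coe, LinearMap.rTensor_tmul]
      generalize comul (R := k) a = z
      induction z with
      | zero => simp
      | add x y hx hy => simp only [map_add, add_tmul, hx, hy]
      | tmul b c => simp [hD]
  · refine Finsupp.lhom_ext' fun j => ?_
    ext1 m
    simp only [LinearMap.comp_apply, Finsupp.lsingle_apply, fco_single, hDx, LinearMap.id_apply]
    have := LinearMap.congr_fun hr' m
    simp only [LinearMap.comp_apply, LinearMap.id_apply] at this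
    rw [this]

end Fin

section Res

variable {k P A M N : Type*} [CommSemiring k] [AddCommMonoid P] [Module k P] [Coalgebra k P]
  [AddCommMonoid A] [Module k A] [Coalgebra k A]
  [AddCommMonoid M] [Module k M] [AddCommMonoid N] [Module k N]

/-- Restriction of a coaction along a map of coalgebras. -/
noncomputable def res (f : P →ₗ[k] A) (ρ : M →ₗ[k] P ⊗[k] M) : M →ₗ[k] A ⊗[k] M :=
  f.rTensor M ∘ₗ ρ

theorem Colin.res (f : P →ₗ[k] A) {ρ : M →ₗ[k] P ⊗[k] M} {σ : N →ₗ[k] P ⊗[k] N}
    {g : M →ₗ[k] N} (h : Colin ρ σ g) : Colin (res f ρ) (res f σ) g := by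
  unfold Colin Co.res at *
  have h1 : g.lTensor A ∘ₗ f.rTensor M = f.rTensor N ∘ₗ g.lTensor P := by
    rw [LinearMap.lTensor_comp_rTensor, LinearMap.rTensor_comp_lTensor]
  calc (f.rTensor N ∘ₗ σ) ∘ₗ g = f.rTensor N ∘ₗ (σ ∘ₗ g) := rfl
    _ = (f.rTensor N ∘ₗ g.lTensor P) ∘ₗ ρ := by rw [h]; rfl
    _ = g.lTensor A ∘ₗ f.rTensor M ∘ₗ ρ := by rw [← h1]; rfl

theorem IsCoact.res (f : P →ₗ[k] A)
    (hf : comul (R := k) ∘ₗ f = TensorProduct.map f f ∘ₗ comul (R := k))
    (hf' : counit (R := k) ∘ₗ f = counit (R := k)) {ρ : M →ₗ[k] P ⊗[k] M} (h : IsCoact ρ) :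
    IsCoact (res f ρ) where
  coassoc := by
    ext m
    have h1 := h.coassoc_apply m
    have e1 : ∀ x : P ⊗[k] M, TensorProduct.assoc k A A M ((comul (R := k)).rTensor M
        (f.rTensor M x)) = TensorProduct.map f (f.rTensor M)
          (TensorProduct.assoc k P P M ((comul (R := k)).rTensor M x)) := by
      intro x
      induction x with
      | zero => simp
      | add x y hx hy => simp only [map_add, hx, hy]
      | tmul a m' =>
        have := LinearMap.congr_fun hf a
        simp only [LinearMap.comp_apply] at this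
        simp only [LinearMap.rTensor_tmul, this]
        generalize comul (R := k) a = z
        induction z with
        | zero => simp
        | add x y hx hy => simp only [map_add, add_tmul, hx, hy]
        | tmul b c => simp
    have e2 : ∀ x : P ⊗[k] M, (Co.res f ρ).lTensor A (f.rTensor M x) =
        TensorProduct.map f (f.rTensor M) (ρ.lTensor P x) := by
      intro x
      induction x with
      | zero => simp
      | add x y hx hy => simp only [map_add, hx, hy]
      | tmul a m' => simp [Co.res]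
    have e3 : Co.res f ρ m = f.rTensor M (ρ m) := rfl
    simp only [LinearMap.comp_apply, LinearEquiv.coe_coe]
    rw [e3, e1, e2, h1]
  counital := by
    ext m
    have h1 := h.counital_apply m
    have e3 : Co.res f ρ m = f.rTensor M (ρ m) := rfl
    simp only [LinearMap.comp_apply, LinearEquiv.coe_coe, LinearMap.id_apply]
    rw [e3, ← LinearMap.comp_apply, ← LinearMap.rTensor_comp, hf', h1]

theorem res_cof (f : P →ₗ[k] A) : res f (cof k P M) = mtens M (res f (comul (R := k))) := by
  refine TensorProduct.ext' fun a m => ?_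
  simp only [res, LinearMap.comp_apply, cof, mtens_tmul, LinearEquiv.coe_coe,
    LinearMap.rTensor_tmul]
  generalize comul (R := k) a = z
  induction z with
  | zero => simp
  | add x y hx hy => simp only [map_add, add_tmul, hx, hy]
  | tmul b c => simp

/-- If `P` is injective over `A` then every injective `P`-comodule is injective over `A`. -/
theorem Inj.res (f : P →ₗ[k] A) (hP : Inj (Co.res f (comul (R := k)))) {ρ : M →ₗ[k] P ⊗[k] M}
    (hρ : IsCoact ρ) (h : Inj ρ) : Inj (res f ρ) := by
  obtain ⟨r, hr, hr'⟩ := h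
  have h1 : Inj (Co.res f (cof k P M)) := by
    rw [res_cof]
    exact hP.mtens
  exact h1.retract (hρ.colin.res f) (hr.res f) hr'

end Res

section Integral

variable {k A B M : Type*} [Field k] [CommRing A] [Bialgebra k A]
  [AddCommGroup B] [Module k B] [AddCommGroup M] [Module k M]

theorem colin_one (ρ : M →ₗ[k] A ⊗[k] M) :
    Colin ρ (tens (comul (R := k) (A := A)) ρ) (TensorProduct.mk k A M 1) := by
  unfold Colin
  ext m
  simp only [LinearMap.comp_apply, TensorProduct.mk_apply, tens_tmul, Bialgebra.comul_one,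
    Algebra.TensorProduct.one_def]
  generalize ρ m = x
  induction x with
  | zero => simp
  | add x y hx hy => simp only [tmul_add, map_add, hx, hy]
  | tmul a m' => simp

/-- **Total integral criterion**: `B` a comodule with an element `e` and a colinear action
`act : B ⊗ M → M` with `act (e ⊗ m) = m`; `φ : A → B` colinear with `φ 1 = e`. Then `M` is
injective. -/
theorem Inj.of_integral {S : A →ₗ[k] A} (hS : IsAnti S) {β : B →ₗ[k] A ⊗[k] B}
    {ρ : M →ₗ[k] A ⊗[k] M} (hρ : IsCoact ρ) {act : B ⊗[k] M →ₗ[k] M}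
    (hact : Colin (tens β ρ) ρ act) {e : B} (he : ∀ m, act (e ⊗ₜ m) = m) {φ : A →ₗ[k] B}
    (hφ : Colin (comul (R := k)) β φ) (h1 : φ 1 = e) : Inj ρ := by
  refine (inj_comul.tens_left hS isCoact_comul hρ).retract (i := TensorProduct.mk k A M 1)
    (s := act ∘ₗ φ.rTensor M) (colin_one ρ) (hact.comp (hφ.tens (Colin.id ρ))) ?_
  ext m
  simp [h1, he]

/-- The total integral criterion for an algebra `B` (with a multiplicative coaction). -/
theorem inj_of_integral {k A B : Type*} [Field k] [CommRing A] [Bialgebra k A] [CommRing B]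
    [Algebra k B] {S : A →ₗ[k] A} (hS : IsAnti S) (β : B →ₐ[k] A ⊗[k] B)
    (hβ : IsCoact β.toLinearMap) {φ : A →ₗ[k] B}
    (hφ : Colin (comul (R := k)) β.toLinearMap φ) (h1 : φ 1 = 1) : Inj β.toLinearMap := by
  refine Inj.of_integral hS hβ (act := LinearMap.mul' k B) (e := 1) ?_ (by simp) hφ h1
  unfold Colin
  refine TensorProduct.ext' fun b c => ?_
  simp only [LinearMap.comp_apply, LinearMap.mul'_apply, tens_tmul, AlgHom.toLinearMap_apply,
    map_mul]
  generalize β b = x
  generalize β c = y
  induction x with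
  | zero => simp
  | add x x' hx hx' => simp only [add_mul, add_tmul, map_add, hx, hx']
  | tmul a m =>
    induction y with
    | zero => simp
    | add y y' hy hy' => simp only [mul_add, tmul_add, map_add, hy, hy']
    | tmul a' m' => simp

end Integral

end Vale.Agent.P093.N.Co
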