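import Vale.Agent.P093.N.Co.Int

/-!
# P093, part N : comodule calculus (6) : tensor powers modulo the power of a subcomodule

`q : V → A` surjective and colinear with kernel `N`. Then `V^{⊗ m} / N^{⊗ m}` is injective, hence
every colinear retract of `V^{⊗ m}` on which the projection kills `N^{⊗ m}` is injective.
-/

open TensorProduct Coalgebra

set_option linter.unusedSectionVars false

namespace Vale.Agent.P093.N.Co

section Quot

variable {k A V W X : Type*} [Field k] [CommRing A] [Bialgebra k A]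
  [AddCommGroup V] [Module k V] [AddCommGroup W] [Module k W] [AddCommGroup X] [Module k X]

/-- The map induced on a quotient. -/
noncomputable def qlift {k W X : Type*} [Field k] [AddCommGroup W] [Module k W]
    [AddCommGroup X] [Module k X] (M : Submodule k W) (s : W →ₗ[k] X) (h : ∀ x ∈ M, s x = 0) :
    (W ⧸ M) →ₗ[k] X :=
  M.liftQ s fun x hx => LinearMap.mem_ker.mpr (h x hx)

theorem qlift_mkQ {k W X : Type*} [Field k] [AddCommGroup W] [Module k W]
    [AddCommGroup X] [Module k X] (M : Submodule k W) (s : W →ₗ[k] X) (h : ∀ x ∈ M, s x = 0) :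
    qlift M s h ∘ₗ M.mkQ = s :=
  Submodule.liftQ_mkQ _ _ _

/-- `M ⊆ W` is a subcomodule and the quotient is injective. -/
def QInj (ρ : W →ₗ[k] A ⊗[k] W) (M : Submodule k W) : Prop :=
  ∃ h : SubCo ρ M, Inj (quotCo ρ M h)

theorem QInj.top (ρ : W →ₗ[k] A ⊗[k] W) : QInj ρ ⊤ := by
  have h : SubCo ρ ⊤ := by
    intro x _
    have h1 : (⊤ : Submodule k W).subtype ∘ₗ (LinearMap.id.codRestrict ⊤ fun _ => trivial) =
        LinearMap.id := by
      ext
      rfl
    refine ⟨(LinearMap.id.codRestrict ⊤ fun _ => trivial).lTensor A (ρ x), ?_⟩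
    rw [← LinearMap.comp_apply, ← LinearMap.lTensor_comp, h1, LinearMap.lTensor_id]
    rfl
  refine ⟨h, 0, Colin.zero _ _, ?_⟩
  have : Subsingleton (W ⧸ (⊤ : Submodule k W)) := Submodule.Quotient.subsingleton_iff.mpr rfl
  ext x
  exact Subsingleton.elim _ _

/-- A colinear retract killing `M` of an object with `QInj` is injective. -/
theorem QInj.retract {ρ : W →ₗ[k] A ⊗[k] W} {M : Submodule k W} (h : QInj ρ M)
    {τ : X →ₗ[k] A ⊗[k] X} {i : X →ₗ[k] W} {s : W →ₗ[k] X} (hi : Colin τ ρ i)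
    (hs : Colin ρ τ s) (his : s ∘ₗ i = LinearMap.id) (h0 : ∀ x ∈ M, s x = 0) : Inj τ := by
  obtain ⟨hM, hI⟩ := h
  have hs' : Colin (quotCo ρ M hM) τ (qlift M s h0) := by
    refine Colin.of_surj (colin_mkQ ρ M hM) (Submodule.mkQ_surjective M) ?_
    rw [qlift_mkQ]
    exact hs
  refine hI.retract ((colin_mkQ ρ M hM).comp hi) hs' ?_
  rw [← LinearMap.comp_assoc, qlift_mkQ, his]

theorem QInj.of_bij {ρ : W →ₗ[k] A ⊗[k] W} {M : Submodule k W} (h : QInj ρ M)
    {τ : X →ₗ[k] A ⊗[k] X} {f : W →ₗ[k] X} (hf : Colin ρ τ f) (hb : Function.Bijective f) :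
    QInj τ (M.map f) := by
  obtain ⟨hM, hI⟩ := h
  have hsub : SubCo τ (M.map f) := by
    rintro _ ⟨x, hx, rfl⟩
    obtain ⟨y, hy⟩ := hM x hx
    rw [hf.apply, ← hy]
    let g : M →ₗ[k] M.map f := (f ∘ₗ M.subtype).codRestrict (M.map f)
      fun z => ⟨z.1, z.2, rfl⟩
    refine ⟨g.lTensor A y, ?_⟩
    rw [← LinearMap.comp_apply, ← LinearMap.comp_apply, ← LinearMap.lTensor_comp,
      ← LinearMap.lTensor_comp]
    rfl
  refine ⟨hsub, ?_⟩
  -- the induced map on quotients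
  have hker : ∀ x ∈ M, ((M.map f).mkQ ∘ₗ f) x = 0 := by
    intro x hx
    rw [LinearMap.comp_apply, Submodule.mkQ_apply, Submodule.Quotient.mk_eq_zero]
    exact ⟨x, hx, rfl⟩
  let g : (W ⧸ M) →ₗ[k] (X ⧸ M.map f) := qlift M ((M.map f).mkQ ∘ₗ f) hker
  have hg : Colin (quotCo ρ M hM) (quotCo τ (M.map f) hsub) g := by
    refine Colin.of_surj (colin_mkQ ρ M hM) (Submodule.mkQ_surjective M) ?_
    rw [qlift_mkQ]
    exact (colin_mkQ τ (M.map f) hsub).comp hf
  refine hI.of_bij' hg ⟨?_, ?_⟩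
  · rw [← LinearMap.ker_eq_bot, eq_bot_iff]
    intro x hx
    obtain ⟨y, rfl⟩ := Submodule.mkQ_surjective M x
    have h1 : g (M.mkQ y) = (M.map f).mkQ (f y) := rfl
    rw [LinearMap.mem_ker, h1, Submodule.mkQ_apply, Submodule.Quotient.mk_eq_zero] at hx
    obtain ⟨z, hz, hz'⟩ := hx
    have h2 : z = y := hb.1 hz'
    rw [Submodule.mem_bot, Submodule.mkQ_apply, Submodule.Quotient.mk_eq_zero, ← h2]
    exact hz
  · intro x
    obtain ⟨y, rfl⟩ := Submodule.mkQ_surjective (M.map f) x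
    obtain ⟨z, rfl⟩ := hb.2 y
    exact ⟨M.mkQ z, rfl⟩

/-- The product of two submodules inside the tensor product. -/
noncomputable def tsub (N : Submodule k V) (M : Submodule k W) : Submodule k (V ⊗[k] W) :=
  LinearMap.range (TensorProduct.map N.subtype M.subtype)

theorem tmul_mem_tsub {N : Submodule k V} {M : Submodule k W} {v : V} {w : W} (hv : v ∈ N)
    (hw : w ∈ M) : v ⊗ₜ[k] w ∈ tsub N M :=
  ⟨(⟨v, hv⟩ : N) ⊗ₜ (⟨w, hw⟩ : M), by simp⟩

/-- The inductive step: if `q : V → A` is colinear and onto with kernel `N` and `W / M` is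
injective then `V ⊗ W / N ⊗ M` is injective. -/
theorem QInj.step {S : A →ₗ[k] A} (hS : IsAnti S) {ρ : V →ₗ[k] A ⊗[k] V}
    {σ : W →ₗ[k] A ⊗[k] W} (hρ : IsCoact ρ) (hσ : IsCoact σ) {q : V →ₗ[k] A}
    (hq : Colin ρ (comul (R := k)) q) (hsurj : Function.Surjective q) {M : Submodule k W}
    (h : QInj σ M) : QInj (tens ρ σ) (tsub (LinearMap.ker q) M) := by
  obtain ⟨hM, hI⟩ := h
  set N := LinearMap.ker q with hN
  obtain ⟨κ, hκ⟩ := exists_sub (subCo_ker hq)
  obtain ⟨μ, hμ⟩ := exists_sub hM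
  have hκc : IsCoact κ := hρ.of_inj hκ (Submodule.subtype_injective _)
  have hμc : IsCoact μ := hσ.of_inj hμ (Submodule.subtype_injective _)
  have hsub : SubCo (tens ρ σ) (tsub N M) := subCo_range (hκ.tens hμ)
  refine ⟨hsub, ?_⟩
  -- the maps
  let pW : W →ₗ[k] (W ⧸ M) := M.mkQ
  have hpW : Colin σ (quotCo σ M hM) pW := colin_mkQ σ M hM
  obtain ⟨t, ht⟩ := exists_sect (Submodule.mkQ_surjective M)
  let a : N ⊗[k] W →ₗ[k] V ⊗[k] W := N.subtype.rTensor W
  have ha : Colin (tens κ σ) (tens ρ σ) a := hκ.tens (Colin.id σ)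
  have hainj : Function.Injective a :=
    Module.Flat.rTensor_preserves_injective_linearMap _ (Submodule.subtype_injective _)
  let p : V ⊗[k] W →ₗ[k] (V ⊗[k] W) ⧸ tsub N M := (tsub N M).mkQ
  have hp : Colin (tens ρ σ) (quotCo (tens ρ σ) (tsub N M) hsub) p := colin_mkQ _ _ _
  let b : N ⊗[k] W →ₗ[k] N ⊗[k] (W ⧸ M) := pW.lTensor N
  have hb : Colin (tens κ σ) (tens κ (quotCo σ M hM)) b := (Colin.id κ).tens hpW
  have hbs : Function.Surjective b := LinearMap.lTensor_surjective _ (Submodule.mkQ_surjective M)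
  have hbex : Function.Exact (M.subtype.lTensor N) b :=
    lTensor_exact N (LinearMap.exact_subtype_mkQ M) (Submodule.mkQ_surjective M)
  have hpa : ∀ y, b y = 0 → p (a y) = 0 := by
    intro y hy
    obtain ⟨z, rfl⟩ := (hbex y).mp hy
    rw [Submodule.mkQ_apply, Submodule.Quotient.mk_eq_zero]
    refine ⟨z, ?_⟩
    have : TensorProduct.map N.subtype M.subtype = a ∘ₗ M.subtype.lTensor N := by
      ext
      simp [a]
    rw [this]
    rfl
  let i : N ⊗[k] (W ⧸ M) →ₗ[k] (V ⊗[k] W) ⧸ tsub N M := p ∘ₗ a ∘ₗ t.lTensor N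
  have hib : i ∘ₗ b = p ∘ₗ a := by
    refine LinearMap.ext fun y => ?_
    have h1 : b (t.lTensor N (b y) - y) = 0 := by
      rw [map_sub, sub_eq_zero, ← LinearMap.comp_apply, ← LinearMap.lTensor_comp]
      have : pW ∘ₗ t = LinearMap.id := ht
      rw [this, LinearMap.lTensor_id]
      rfl
    have h2 := hpa _ h1
    rw [map_sub, map_sub, sub_eq_zero] at h2
    exact h2
  have hi : Colin (tens κ (quotCo σ M hM)) (quotCo (tens ρ σ) (tsub N M) hsub) i := by
    refine Colin.of_surj hb hbs ?_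
    rw [hib]
    exact hp.comp ha
  let c : V ⊗[k] W →ₗ[k] A ⊗[k] W := q.rTensor W
  have hc : Colin (tens ρ σ) (tens (comul (R := k)) σ) c := hq.tens (Colin.id σ)
  have hcs : Function.Surjective c := LinearMap.rTensor_surjective _ hsurj
  have hcex : Function.Exact a c :=
    rTensor_exact W (LinearMap.exact_subtype_ker_map q) hsurj
  have hc0 : ∀ x ∈ tsub N M, c x = 0 := by
    rintro _ ⟨z, rfl⟩
    have : TensorProduct.map N.subtype M.subtype = a ∘ₗ M.subtype.lTensor N := by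
      ext
      simp [a]
    rw [this, LinearMap.comp_apply]
    exact (hcex _).mpr ⟨_, rfl⟩
  let j : (V ⊗[k] W) ⧸ tsub N M →ₗ[k] A ⊗[k] W := qlift (tsub N M) c hc0
  have hjp : j ∘ₗ p = c := qlift_mkQ _ _ _
  have hj : Colin (quotCo (tens ρ σ) (tsub N M) hsub) (tens (comul (R := k)) σ) j := by
    refine Colin.of_surj hp (Submodule.mkQ_surjective _) ?_
    rw [hjp]
    exact hc
  refine Inj.ext (hI.tens_right hS hκc (hσ.quot M hM)) (inj_comul.tens_left hS isCoact_comul hσ)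
    ((hρ.tens hσ).quot _ hsub) hi hj ?_ ?_ ?_
  · rw [← LinearMap.ker_eq_bot, eq_bot_iff]
    intro x hx
    obtain ⟨y, rfl⟩ := hbs x
    have h1 : p (a y) = 0 := by
      have := LinearMap.mem_ker.mp hx
      rwa [← LinearMap.comp_apply, hib] at this
    rw [Submodule.mkQ_apply, Submodule.Quotient.mk_eq_zero] at h1
    obtain ⟨z, hz⟩ := h1
    have : TensorProduct.map N.subtype M.subtype = a ∘ₗ M.subtype.lTensor N := by
      ext
      simp [a]
    rw [this, LinearMap.comp_apply] at hz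
    rw [Submodule.mem_bot, ← hainj hz]
    exact (hbex _).mpr ⟨z, rfl⟩
  · intro x
    constructor
    · intro hx
      obtain ⟨y, rfl⟩ := Submodule.mkQ_surjective (tsub N M) x
      have h1 : c y = 0 := by
        rw [← hjp]
        exact hx
      obtain ⟨z, rfl⟩ := (hcex y).mp h1
      refine ⟨b z, ?_⟩
      rw [← LinearMap.comp_apply, hib]
      rfl
    · rintro ⟨y, rfl⟩
      obtain ⟨z, rfl⟩ := hbs y
      rw [← LinearMap.comp_apply i, hib, ← LinearMap.comp_apply, ← LinearMap.comp_assoc, hjp]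
      exact (hcex _).mpr ⟨z, rfl⟩
  · intro x
    obtain ⟨y, rfl⟩ := hcs x
    exact ⟨p y, LinearMap.congr_fun hjp y⟩

end Quot

section Pow

variable {k A V : Type*} [Field k] [CommRing A] [Bialgebra k A] [AddCommGroup V] [Module k V]

/-- **STEP-3 THEOREM** (recursive form). `V_m` a sequence of comodules with colinear bijections
`μ_m : V ⊗ V_m → V_{m+1}`; `N_m` the submodule spanned by the products of elements of
`N = ker q`. Then `V_m / N_m` is injective. -/
theorem qInj_rec {S : A →ₗ[k] A} (hS : IsAnti S) {ρ : V →ₗ[k] A ⊗[k] V} (hρ : IsCoact ρ)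
    {q : V →ₗ[k] A} (hq : Colin ρ (comul (R := k)) q) (hsurj : Function.Surjective q)
    (Vm : ℕ → Type*) [∀ m, AddCommGroup (Vm m)] [∀ m, Module k (Vm m)]
    (ρm : ∀ m, Vm m →ₗ[k] A ⊗[k] Vm m) (hρm : ∀ m, IsCoact (ρm m))
    (μ : ∀ m, V ⊗[k] Vm m →ₗ[k] Vm (m + 1)) (hμ : ∀ m, Colin (tens ρ (ρm m)) (ρm (m + 1)) (μ m))
    (hb : ∀ m, Function.Bijective (μ m)) (Nm : ∀ m, Submodule k (Vm m)) (h0 : Nm 0 = ⊤)
    (hN : ∀ m, Nm (m + 1) = (tsub (LinearMap.ker q) (Nm m)).map (μ m)) (m : ℕ) :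
    QInj (ρm m) (Nm m) := by
  induction m with
  | zero =>
    rw [h0]
    exact QInj.top _
  | succ m ih =>
    rw [hN]
    exact (ih.step hS hρ (hρm m) hq hsurj).of_bij (hμ m) (hb m)

end Pow

end Vale.Agent.P093.N.Co
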