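import Vale.Agent.P093.N.Co.Pow

/-!
# P093, part N : comodule calculus (7) : the STEP-3 theorem for `PiTensorProduct`
-/

open TensorProduct Coalgebra

set_option linter.unusedSectionVars false

namespace Vale.Agent.P093.N.Co

section Cons

variable (k V : Type*) [CommRing k] [AddCommGroup V] [Module k V]

/-- The `m`-fold tensor power. -/
abbrev Pw (m : ℕ) : Type _ := PiTensorProduct k (fun _ : Fin m => V)

/-- `v ⊗ tprod w ↦ tprod (cons v w)`. -/
noncomputable def consF (m : ℕ) : V ⊗[k] Pw k V m →ₗ[k] Pw k V (m + 1) :=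
  TensorProduct.lift ((PiTensorProduct.lift (R := k) (s := fun _ : Fin m => V)
    (E := Pw k V (m + 1))).toLinearMap ∘ₗ
      (PiTensorProduct.tprod k (s := fun _ : Fin (m + 1) => V)).curryLeft)

variable {k V}

@[simp] theorem consF_tmul (m : ℕ) (v : V) (w : Fin m → V) :
    consF k V m (v ⊗ₜ PiTensorProduct.tprod k w) =
      PiTensorProduct.tprod k (Fin.cons v w : Fin (m + 1) → V) := by
  unfold consF
  rw [TensorProduct.lift.tmul, LinearMap.comp_apply, LinearEquiv.coe_coe,
    PiTensorProduct.lift.tprod, MultilinearMap.curryLeft_apply]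

/-- The auxiliary multilinear maps. -/
noncomputable def consB0 (k V : Type*) [CommRing k] [AddCommGroup V] [Module k V] (m : ℕ) :
    V →ₗ[k] MultilinearMap k (fun _ : Fin m => V) (V ⊗[k] Pw k V m) where
  toFun v := (TensorProduct.mk k V (Pw k V m) v).compMultilinearMap (PiTensorProduct.tprod k)
  map_add' v w := by
    ext x
    simp
  map_smul' c v := by
    ext x
    simp

/-- The inverse. -/
noncomputable def consB (k V : Type*) [CommRing k] [AddCommGroup V] [Module k V] (m : ℕ) :
    Pw k V (m + 1) →ₗ[k] V ⊗[k] Pw k V m :=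
  PiTensorProduct.lift (LinearMap.uncurryLeft (M := fun _ : Fin (m + 1) => V) (consB0 k V m))

@[simp] theorem consB_tprod (m : ℕ) (w : Fin (m + 1) → V) :
    consB k V m (PiTensorProduct.tprod k w) =
      w 0 ⊗ₜ PiTensorProduct.tprod k (fun i : Fin m => w i.succ) := by
  unfold consB
  rw [PiTensorProduct.lift.tprod, LinearMap.uncurryLeft_apply]
  rfl

theorem consB_consF (m : ℕ) : consB k V m ∘ₗ consF k V m = LinearMap.id := by
  refine TensorProduct.ext' fun v x => ?_
  induction x using PiTensorProduct.induction_on with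
  | smul_tprod c w => simp
  | add x y hx hy => simp only [tmul_add, map_add, hx, hy]

theorem consF_consB (m : ℕ) : consF k V m ∘ₗ consB k V m = LinearMap.id := by
  refine PiTensorProduct.ext ?_
  ext w
  simp only [LinearMap.compMultilinearMap_apply, LinearMap.comp_apply, consB_tprod, consF_tmul,
    LinearMap.id_apply]
  congr 1
  exact Fin.cons_self_tail w

/-- `V ⊗ V^{⊗ m} ≃ V^{⊗ (m + 1)}`. -/
noncomputable def consE (k V : Type*) [CommRing k] [AddCommGroup V] [Module k V] (m : ℕ) :
    V ⊗[k] Pw k V m ≃ₗ[k] Pw k V (m + 1) :=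
  LinearEquiv.ofLinearMap (consF k V m) (consB k V m) (consF_consB m) (consB_consF m)

@[simp] theorem consE_toLinearMap (m : ℕ) : (consE k V m).toLinearMap = consF k V m := rfl

@[simp] theorem consE_symm_toLinearMap (m : ℕ) :
    (consE k V m).symm.toLinearMap = consB k V m := rfl

theorem consF_bijective (m : ℕ) : Function.Bijective (consF k V m) := (consE k V m).bijective

/-- Naturality of `consF`. -/
theorem map_consF {W : Type*} [AddCommGroup W] [Module k W] (f : V →ₗ[k] W) (m : ℕ) :
    PiTensorProduct.map (fun _ : Fin (m + 1) => f) ∘ₗ consF k V m =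
      consF k W m ∘ₗ TensorProduct.map f (PiTensorProduct.map (fun _ : Fin m => f)) := by
  refine TensorProduct.ext' fun v x => ?_
  induction x using PiTensorProduct.induction_on with
  | smul_tprod c w =>
    simp only [LinearMap.comp_apply, TensorProduct.tmul_smul, map_smul, consF_tmul,
      TensorProduct.map_tmul, PiTensorProduct.map_tprod]
    congr 2
    funext i
    refine Fin.cases rfl (fun j => rfl) i
  | add x y hx hy => simp only [tmul_add, map_add, hx, hy]

end Cons

section Npow

variable {k V : Type*} [Field k] [AddCommGroup V] [Module k V]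

/-- The image of `N^{⊗ m}` in `V^{⊗ m}`. -/
noncomputable def npow (N : Submodule k V) (m : ℕ) : Submodule k (Pw k V m) :=
  LinearMap.range (PiTensorProduct.map (fun _ : Fin m => N.subtype))

theorem npow_le {N : Submodule k V} {m : ℕ} {K : Submodule k (Pw k V m)}
    (h : ∀ w : Fin m → V, (∀ i, w i ∈ N) → PiTensorProduct.tprod k w ∈ K) : npow N m ≤ K := by
  rintro _ ⟨x, rfl⟩
  induction x using PiTensorProduct.induction_on with
  | smul_tprod c w =>
    rw [map_smul, PiTensorProduct.map_tprod]
    exact K.smul_mem c (h _ fun i => (w i).2)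
  | add x y hx hy =>
    rw [map_add]
    exact K.add_mem hx hy

theorem tprod_mem_npow {N : Submodule k V} {m : ℕ} {w : Fin m → V} (h : ∀ i, w i ∈ N) :
    PiTensorProduct.tprod k w ∈ npow N m :=
  ⟨PiTensorProduct.tprod k fun i => (⟨w i, h i⟩ : N), by rw [PiTensorProduct.map_tprod]; rfl⟩

theorem npow_zero (N : Submodule k V) : npow N 0 = ⊤ := by
  rw [eq_top_iff, ← PiTensorProduct.span_tprod_eq_top, Submodule.span_le]
  rintro _ ⟨w, rfl⟩
  exact tprod_mem_npow fun i => i.elim0

theorem npow_succ (N : Submodule k V) (m : ℕ) :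
    npow N (m + 1) = (tsub N (npow N m)).map (consF k V m) := by
  apply le_antisymm
  · refine npow_le fun w hw => ?_
    refine ⟨w 0 ⊗ₜ PiTensorProduct.tprod k (fun i : Fin m => w i.succ),
      tmul_mem_tsub (hw 0) (tprod_mem_npow fun i => hw i.succ), ?_⟩
    rw [consF_tmul]
    congr 1
    exact Fin.cons_self_tail w
  · rintro _ ⟨_, ⟨y, rfl⟩, rfl⟩
    induction y with
    | zero =>
      rw [map_zero, map_zero]
      exact zero_mem _
    | add x y hx hy =>
      rw [map_add, map_add]
      exact add_mem hx hy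
    | tmul n z =>
      have key : ∀ x : PiTensorProduct k (fun _ : Fin m => N),
          consF k V m (n.1 ⊗ₜ[k] PiTensorProduct.map (fun _ : Fin m => N.subtype) x) ∈
            npow N (m + 1) := by
        intro x
        induction x using PiTensorProduct.induction_on with
        | smul_tprod c w =>
          rw [map_smul, PiTensorProduct.map_tprod, tmul_smul, map_smul, consF_tmul]
          refine Submodule.smul_mem _ c (tprod_mem_npow fun i => ?_)
          refine Fin.cases n.2 (fun j => (w j).2) i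
        | add x y hx hy =>
          rw [map_add, tmul_add, map_add]
          exact add_mem hx hy
      obtain ⟨x, hx⟩ := z.2
      have h1 := key x
      rw [hx] at h1
      exact h1

end Npow

section PowCo

variable {k A V : Type*} [Field k] [CommRing A] [Bialgebra k A] [AddCommGroup V] [Module k V]

/-- The diagonal coaction on `V^{⊗ m}`. -/
noncomputable def powCo (ρ : V →ₗ[k] A ⊗[k] V) : ∀ m, Pw k V m →ₗ[k] A ⊗[k] Pw k V m
  | 0 => TensorProduct.mk k A (Pw k V 0) 1
  | m + 1 => (consF k V m).lTensor A ∘ₗ tens ρ (powCo ρ m) ∘ₗ consB k V m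

theorem colin_consF (ρ : V →ₗ[k] A ⊗[k] V) (m : ℕ) :
    Colin (tens ρ (powCo ρ m)) (powCo ρ (m + 1)) (consF k V m) := by
  unfold Colin
  change ((consF k V m).lTensor A ∘ₗ tens ρ (powCo ρ m) ∘ₗ consB k V m) ∘ₗ consF k V m = _
  rw [LinearMap.comp_assoc, LinearMap.comp_assoc, consB_consF, LinearMap.comp_id]

theorem isCoact_one {M : Type*} [AddCommGroup M] [Module k M] :
    IsCoact (TensorProduct.mk k A M 1) where
  coassoc := by
    ext m
    simp [Algebra.TensorProduct.one_def]
  counital := by
    ext m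
    simp

theorem IsCoact.powCo {ρ : V →ₗ[k] A ⊗[k] V} (h : IsCoact ρ) (m : ℕ) : IsCoact (powCo ρ m) := by
  induction m with
  | zero => exact isCoact_one
  | succ m ih => exact (h.tens ih).of_surj (colin_consF ρ m) (consF_bijective m).2

/-- The coaction on pure tensors, recursively. -/
theorem powCo_cons (ρ : V →ₗ[k] A ⊗[k] V) (m : ℕ) (v : V) (w : Fin m → V) :
    powCo ρ (m + 1) (PiTensorProduct.tprod k (Fin.cons v w : Fin (m + 1) → V)) =
      (consF k V m).lTensor A
        (pr k A V (Pw k V m) (ρ v ⊗ₜ powCo ρ m (PiTensorProduct.tprod k w))) := by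
  have h := (colin_consF ρ m).apply (v ⊗ₜ PiTensorProduct.tprod k w)
  rw [consF_tmul, tens_tmul] at h
  exact h

/-- **STEP-3 THEOREM** for the tensor power: `V^{⊗ m} / N^{⊗ m}` is injective, `N = ker q`. -/
theorem qInj_pow {S : A →ₗ[k] A} (hS : IsAnti S) {ρ : V →ₗ[k] A ⊗[k] V} (hρ : IsCoact ρ)
    {q : V →ₗ[k] A} (hq : Colin ρ (comul (R := k)) q) (hsurj : Function.Surjective q) (m : ℕ) :
    QInj (powCo ρ m) (npow (LinearMap.ker q) m) :=
  qInj_rec hS hρ hq hsurj (fun m => Pw k V m) (powCo ρ) hρ.powCo (fun m => consF k V m)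
    (colin_consF ρ) consF_bijective (npow (LinearMap.ker q)) (npow_zero _) (npow_succ _) m

/-- A colinear retract of `V^{⊗ m}` (transported by a colinear isomorphism `κ`) on which the
projection kills `N^{⊗ m}` is injective. -/
theorem inj_of_pow {S : A →ₗ[k] A} (hS : IsAnti S) {ρ : V →ₗ[k] A ⊗[k] V} (hρ : IsCoact ρ)
    {q : V →ₗ[k] A} (hq : Colin ρ (comul (R := k)) q) (hsurj : Function.Surjective q) (m : ℕ)
    {W X : Type*} [AddCommGroup W] [Module k W] [AddCommGroup X] [Module k X]
    {σ : W →ₗ[k] A ⊗[k] W} {τ : X →ₗ[k] A ⊗[k] X} {κ : Pw k V m →ₗ[k] W}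
    (hκ : Colin (powCo ρ m) σ κ) (hκb : Function.Bijective κ) {i : X →ₗ[k] W} {s : W →ₗ[k] X}
    (hi : Colin τ σ i) (hs : Colin σ τ s) (his : s ∘ₗ i = LinearMap.id)
    (h0 : ∀ w : Fin m → V, (∀ j, q (w j) = 0) → s (κ (PiTensorProduct.tprod k w)) = 0) :
    Inj τ := by
  refine ((qInj_pow hS hρ hq hsurj m).of_bij hκ hκb).retract hi hs his ?_
  rintro _ ⟨x, hx, rfl⟩
  have h1 : npow (LinearMap.ker q) m ≤ LinearMap.ker (s ∘ₗ κ) :=
    npow_le fun w hw => LinearMap.mem_ker.mpr (h0 w fun j => LinearMap.mem_ker.mp (hw j))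
  exact LinearMap.mem_ker.mp (h1 hx)

end PowCo

end Vale.Agent.P093.N.Co
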