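import Vale.Agent.P093.N.Co.Exact

/-!
# P093, part N : comodule calculus (3) : tensor products (diagonal coaction)
-/

open TensorProduct Coalgebra

set_option linter.unusedSectionVars false

namespace Vale.Agent.P093.N.Co

section Prod

variable (k A M N : Type*) [CommRing k] [CommRing A] [Bialgebra k A]
  [AddCommGroup M] [Module k M] [AddCommGroup N] [Module k N]

/-- `(a ⊗ m) ⊗ (b ⊗ n) ↦ a b ⊗ (m ⊗ n)`. -/
noncomputable def pr : (A ⊗[k] M) ⊗[k] (A ⊗[k] N) →ₗ[k] A ⊗[k] (M ⊗[k] N) :=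
  (LinearMap.mul' k A).rTensor (M ⊗[k] N) ∘ₗ
    (TensorProduct.tensorTensorTensorComm k A M A N).toLinearMap

variable {k A M N}

@[simp] theorem pr_tmul (a b : A) (m : M) (n : N) :
    pr k A M N ((a ⊗ₜ m) ⊗ₜ (b ⊗ₜ n)) = (a * b) ⊗ₜ (m ⊗ₜ n) := by
  simp [pr]

end Prod

section Bialg

variable {k A M N M' N' V B : Type*} [CommRing k] [CommRing A] [Bialgebra k A]
  [AddCommGroup M] [Module k M] [AddCommGroup N] [Module k N]
  [AddCommGroup M'] [Module k M'] [AddCommGroup N'] [Module k N']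
  [AddCommGroup V] [Module k V]

/-- The diagonal coaction on `M ⊗ N`. -/
noncomputable def tens (ρ : M →ₗ[k] A ⊗[k] M) (σ : N →ₗ[k] A ⊗[k] N) :
    M ⊗[k] N →ₗ[k] A ⊗[k] (M ⊗[k] N) :=
  pr k A M N ∘ₗ TensorProduct.map ρ σ

@[simp] theorem tens_tmul (ρ : M →ₗ[k] A ⊗[k] M) (σ : N →ₗ[k] A ⊗[k] N) (m : M) (n : N) :
    tens ρ σ (m ⊗ₜ n) = pr k A M N (ρ m ⊗ₜ σ n) := by
  simp [tens]

/-- `(a ⊗ a' ⊗ m) ⊗ (b ⊗ b' ⊗ n) ↦ a b ⊗ a' b' ⊗ (m ⊗ n)`. -/
noncomputable def pr2 (k A M N : Type*) [CommRing k] [CommRing A] [Bialgebra k A]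
    [AddCommGroup M] [Module k M] [AddCommGroup N] [Module k N] :
    (A ⊗[k] (A ⊗[k] M)) ⊗[k] (A ⊗[k] (A ⊗[k] N)) →ₗ[k] A ⊗[k] (A ⊗[k] (M ⊗[k] N)) :=
  (pr k A M N).lTensor A ∘ₗ pr k A (A ⊗[k] M) (A ⊗[k] N)

theorem comul_pr (x : A ⊗[k] M) (y : A ⊗[k] N) :
    TensorProduct.assoc k A A (M ⊗[k] N)
      ((comul (R := k)).rTensor (M ⊗[k] N) (pr k A M N (x ⊗ₜ y))) =
    pr2 k A M N ((TensorProduct.assoc k A A M ((comul (R := k)).rTensor M x)) ⊗ₜ
      (TensorProduct.assoc k A A N ((comul (R := k)).rTensor N y))) := by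
  induction x with
  | zero => simp
  | add x x' hx hx' => simp only [add_tmul, map_add, hx, hx']
  | tmul a m =>
    induction y with
    | zero => simp
    | add y y' hy hy' => simp only [tmul_add, map_add, hy, hy']
    | tmul b n =>
      simp only [pr_tmul, LinearMap.rTensor_tmul, Bialgebra.comul_mul]
      generalize (comul (R := k)) a = x
      generalize (comul (R := k)) b = y
      induction x with
      | zero => simp
      | add x x' hx hx' => simp only [add_tmul, map_add, add_mul, hx, hx']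
      | tmul c d =>
        induction y with
        | zero => simp
        | add x x' hx hx' => simp only [add_tmul, tmul_add, map_add, mul_add, hx, hx']
        | tmul e f => simp [pr2]

theorem counit_pr (x : A ⊗[k] M) (y : A ⊗[k] N) :
    TensorProduct.lid k (M ⊗[k] N)
      ((counit (R := k)).rTensor (M ⊗[k] N) (pr k A M N (x ⊗ₜ y))) =
    (TensorProduct.lid k M ((counit (R := k)).rTensor M x)) ⊗ₜ
      (TensorProduct.lid k N ((counit (R := k)).rTensor N y)) := by
  induction x with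
  | zero => simp
  | add x x' hx hx' => simp only [add_tmul, map_add, hx, hx']
  | tmul a m =>
    induction y with
    | zero => simp
    | add y y' hy hy' => simp only [tmul_add, map_add, hy, hy']
    | tmul b n =>
      simp only [pr_tmul, LinearMap.rTensor_tmul, TensorProduct.lid_tmul, Bialgebra.counit_mul]
      rw [TensorProduct.smul_tmul_smul]

theorem lTensor_pr (f : M →ₗ[k] A ⊗[k] M') (g : N →ₗ[k] A ⊗[k] N') (x : A ⊗[k] M)
    (y : A ⊗[k] N) :
    (pr k A M' N' ∘ₗ TensorProduct.map f g).lTensor A (pr k A M N (x ⊗ₜ y)) =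
      pr2 k A M' N' (f.lTensor A x ⊗ₜ g.lTensor A y) := by
  induction x with
  | zero => simp
  | add x x' hx hx' => simp only [add_tmul, map_add, hx, hx']
  | tmul a m =>
    induction y with
    | zero => simp
    | add y y' hy hy' => simp only [tmul_add, map_add, hy, hy']
    | tmul b n => simp [pr2]

theorem map_pr (f : M →ₗ[k] M') (g : N →ₗ[k] N') (x : A ⊗[k] M) (y : A ⊗[k] N) :
    (TensorProduct.map f g).lTensor A (pr k A M N (x ⊗ₜ y)) =
      pr k A M' N' (f.lTensor A x ⊗ₜ g.lTensor A y) := by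
  induction x with
  | zero => simp
  | add x x' hx hx' => simp only [add_tmul, map_add, hx, hx']
  | tmul a m =>
    induction y with
    | zero => simp
    | add y y' hy hy' => simp only [tmul_add, map_add, hy, hy']
    | tmul b n => simp

/-- The diagonal coaction is a coaction. -/
theorem IsCoact.tens {ρ : M →ₗ[k] A ⊗[k] M} {σ : N →ₗ[k] A ⊗[k] N} (hρ : IsCoact ρ)
    (hσ : IsCoact σ) : IsCoact (tens ρ σ) where
  coassoc := by
    refine TensorProduct.ext' fun m n => ?_
    simp only [LinearMap.comp_apply, LinearEquiv.coe_coe, tens_tmul]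
    rw [comul_pr, hρ.coassoc_apply, hσ.coassoc_apply, ← lTensor_pr]
    rfl
  counital := by
    refine TensorProduct.ext' fun m n => ?_
    simp only [LinearMap.comp_apply, LinearEquiv.coe_coe, tens_tmul]
    rw [counit_pr, hρ.counital_apply, hσ.counital_apply]
    rfl

theorem Colin.tens {ρ : M →ₗ[k] A ⊗[k] M} {σ : N →ₗ[k] A ⊗[k] N} {ρ' : M' →ₗ[k] A ⊗[k] M'}
    {σ' : N' →ₗ[k] A ⊗[k] N'} {f : M →ₗ[k] M'} {g : N →ₗ[k] N'} (hf : Colin ρ ρ' f)
    (hg : Colin σ σ' g) : Colin (tens ρ σ) (tens ρ' σ') (TensorProduct.map f g) := by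
  unfold Colin
  refine TensorProduct.ext' fun m n => ?_
  simp only [LinearMap.comp_apply, tens_tmul, TensorProduct.map_tmul]
  rw [map_pr, hf.apply, hg.apply]

theorem colin_comm (ρ : M →ₗ[k] A ⊗[k] M) (σ : N →ₗ[k] A ⊗[k] N) :
    Colin (tens ρ σ) (tens σ ρ) (TensorProduct.comm k M N).toLinearMap := by
  unfold Colin
  refine TensorProduct.ext' fun m n => ?_
  simp only [LinearMap.comp_apply, tens_tmul, LinearEquiv.coe_coe, TensorProduct.comm_tmul]
  generalize ρ m = x
  generalize σ n = y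
  induction x with
  | zero => simp
  | add x x' hx hx' => simp only [add_tmul, tmul_add, map_add, hx, hx']
  | tmul a m =>
    induction y with
    | zero => simp
    | add y y' hy hy' => simp only [add_tmul, tmul_add, map_add, hy, hy']
    | tmul b n => simp [mul_comm]

/-- The antipode identities. -/
structure IsAnti (S : A →ₗ[k] A) : Prop where
  left : LinearMap.mul' k A ∘ₗ S.rTensor A ∘ₗ comul (R := k) =
    Algebra.linearMap k A ∘ₗ counit (R := k)
  right : LinearMap.mul' k A ∘ₗ S.lTensor A ∘ₗ comul (R := k) =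
    Algebra.linearMap k A ∘ₗ counit (R := k)

theorem isAnti_antipode {k A : Type*} [CommRing k] [CommRing A] [HopfAlgebra k A] :
    IsAnti (HopfAlgebra.antipode k (A := A)) :=
  ⟨HopfAlgebra.mul_antipode_rTensor_comul, HopfAlgebra.mul_antipode_lTensor_comul⟩

/-- `a ⊗ (v ⊗ n) ↦ a τ(n)_{(-1)} ⊗ (v ⊗ τ(n)_{(0)})`. -/
noncomputable def shear (V : Type*) [AddCommGroup V] [Module k V] (τ : N →ₗ[k] A ⊗[k] N) :
    A ⊗[k] (V ⊗[k] N) →ₗ[k] A ⊗[k] (V ⊗[k] N) :=
  pr k A V N ∘ₗ τ.lTensor (A ⊗[k] V) ∘ₗ (TensorProduct.assoc k A V N).symm.toLinearMap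

@[simp] theorem shear_tmul (τ : N →ₗ[k] A ⊗[k] N) (a : A) (v : V) (n : N) :
    shear V τ (a ⊗ₜ (v ⊗ₜ n)) = pr k A V N ((a ⊗ₜ v) ⊗ₜ τ n) := by
  simp [shear]

/-- The convolution-like composite `(μ ⊗ 1) (1 ⊗ τ) σ`. -/
noncomputable def conv (τ σ : N →ₗ[k] A ⊗[k] N) : N →ₗ[k] A ⊗[k] N :=
  (LinearMap.mul' k A).rTensor N ∘ₗ (TensorProduct.assoc k A A N).symm.toLinearMap ∘ₗ
    τ.lTensor A ∘ₗ σ

theorem shear_shear (τ σ : N →ₗ[k] A ⊗[k] N) :
    shear V τ ∘ₗ shear V σ = shear V (conv τ σ) := by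
  refine TensorProduct.ext' fun a x => ?_
  induction x with
  | zero => simp
  | add x y hx hy => simp only [tmul_add, map_add, hx, hy]
  | tmul v n =>
    simp only [LinearMap.comp_apply, shear_tmul, conv, LinearEquiv.coe_coe]
    generalize σ n = y
    induction y with
    | zero => simp
    | add x y hx hy => simp only [tmul_add, map_add, hx, hy]
    | tmul b n' =>
      simp only [pr_tmul, shear_tmul, LinearMap.lTensor_tmul]
      generalize τ n' = z
      induction z with
      | zero => simp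
      | add x y hx hy => simp only [tmul_add, map_add, hx, hy]
      | tmul c n'' => simp [mul_assoc]

theorem shear_one : shear V (TensorProduct.mk k A N 1) = LinearMap.id := by
  refine TensorProduct.ext' fun a x => ?_
  induction x with
  | zero => simp
  | add x y hx hy => simp only [tmul_add, map_add, hx, hy]
  | tmul v n => simp

theorem conv_anti_left {S : A →ₗ[k] A} (hS : IsAnti S) {σ : N →ₗ[k] A ⊗[k] N}
    (hσ : IsCoact σ) : conv (S.rTensor N ∘ₗ σ) σ = TensorProduct.mk k A N 1 := by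
  ext n
  have h1 : conv (S.rTensor N ∘ₗ σ) σ n =
      (LinearMap.mul' k A ∘ₗ S.lTensor A ∘ₗ comul (R := k)).rTensor N (σ n) := by
    have h2 : σ.lTensor A (σ n) = TensorProduct.assoc k A A N
        ((comul (R := k)).rTensor N (σ n)) := (hσ.coassoc_apply n).symm
    simp only [conv, LinearMap.comp_apply, LinearEquiv.coe_coe, LinearMap.lTensor_comp]
    rw [h2]
    generalize σ n = y
    induction y with
    | zero => simp
    | add x y hx hy => simp only [map_add, hx, hy]
    | tmul a n' =>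
      simp only [LinearMap.rTensor_tmul, LinearMap.comp_apply]
      generalize (comul (R := k)) a = z
      induction z with
      | zero => simp
      | add x y hx hy => simp only [add_tmul, map_add, hx, hy]
      | tmul b c => simp
  rw [h1, hS.right]
  have h3 := hσ.counital_apply n
  have h4 : ∀ y : A ⊗[k] N, (Algebra.linearMap k A ∘ₗ counit (R := k)).rTensor N y =
      (1 : A) ⊗ₜ[k] (TensorProduct.lid k N ((counit (R := k)).rTensor N y)) := by
    intro y
    induction y with
    | zero => simp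
    | add x y hx hy => simp only [map_add, tmul_add, hx, hy]
    | tmul a n' =>
      simp only [LinearMap.rTensor_tmul, LinearMap.comp_apply, Algebra.linearMap_apply,
        TensorProduct.lid_tmul]
      rw [Algebra.algebraMap_eq_smul_one, TensorProduct.smul_tmul]
  rw [h4, h3]
  rfl

theorem conv_anti_right {S : A →ₗ[k] A} (hS : IsAnti S) {σ : N →ₗ[k] A ⊗[k] N}
    (hσ : IsCoact σ) : conv σ (S.rTensor N ∘ₗ σ) = TensorProduct.mk k A N 1 := by
  ext n
  have h1 : conv σ (S.rTensor N ∘ₗ σ) n =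
      (LinearMap.mul' k A ∘ₗ S.rTensor A ∘ₗ comul (R := k)).rTensor N (σ n) := by
    have h2 : σ.lTensor A (σ n) = TensorProduct.assoc k A A N
        ((comul (R := k)).rTensor N (σ n)) := (hσ.coassoc_apply n).symm
    have h5 : σ.lTensor A (S.rTensor N (σ n)) = S.rTensor (A ⊗[k] N) (σ.lTensor A (σ n)) := by
      have h6 := LinearMap.congr_fun ((LinearMap.lTensor_comp_rTensor (f := S) (g := σ)).trans
        (LinearMap.rTensor_comp_lTensor (f := S) (g := σ)).symm) (σ n)
      exact h6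
    simp only [conv, LinearMap.comp_apply, LinearEquiv.coe_coe]
    rw [h5, h2]
    generalize σ n = y
    induction y with
    | zero => simp
    | add x y hx hy => simp only [map_add, hx, hy]
    | tmul a n' =>
      simp only [LinearMap.rTensor_tmul, LinearMap.comp_apply]
      generalize (comul (R := k)) a = z
      induction z with
      | zero => simp
      | add x y hx hy => simp only [add_tmul, map_add, hx, hy]
      | tmul b c => simp
  rw [h1, hS.left]
  have h3 := hσ.counital_apply n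
  have h4 : ∀ y : A ⊗[k] N, (Algebra.linearMap k A ∘ₗ counit (R := k)).rTensor N y =
      (1 : A) ⊗ₜ[k] (TensorProduct.lid k N ((counit (R := k)).rTensor N y)) := by
    intro y
    induction y with
    | zero => simp
    | add x y hx hy => simp only [map_add, tmul_add, hx, hy]
    | tmul a n' =>
      simp only [LinearMap.rTensor_tmul, LinearMap.comp_apply, Algebra.linearMap_apply,
        TensorProduct.lid_tmul]
      rw [Algebra.algebraMap_eq_smul_one, TensorProduct.smul_tmul]
  rw [h4, h3]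
  rfl

theorem shear_bijective {S : A →ₗ[k] A} (hS : IsAnti S) {σ : N →ₗ[k] A ⊗[k] N}
    (hσ : IsCoact σ) : Function.Bijective (shear V σ) := by
  have h1 : shear V (S.rTensor N ∘ₗ σ) ∘ₗ shear V σ = LinearMap.id := by
    rw [shear_shear, conv_anti_left hS hσ, shear_one]
  have h2 : shear V σ ∘ₗ shear V (S.rTensor N ∘ₗ σ) = LinearMap.id := by
    rw [shear_shear, conv_anti_right hS hσ, shear_one]
  have h3 : Function.LeftInverse (shear V (S.rTensor N ∘ₗ σ)) (shear V σ) :=
    fun x => LinearMap.congr_fun h1 x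
  have h4 : Function.RightInverse (shear V (S.rTensor N ∘ₗ σ)) (shear V σ) :=
    fun x => LinearMap.congr_fun h2 x
  exact ⟨h3.injective, h4.surjective⟩

/-- `(a ⊗ v) ⊗ n ↦ a n_{(-1)} ⊗ (v ⊗ n_{(0)})`. -/
noncomputable def untw (V : Type*) [AddCommGroup V] [Module k V] (σ : N →ₗ[k] A ⊗[k] N) :
    (A ⊗[k] V) ⊗[k] N →ₗ[k] A ⊗[k] (V ⊗[k] N) :=
  pr k A V N ∘ₗ σ.lTensor (A ⊗[k] V)

theorem untw_bijective {S : A →ₗ[k] A} (hS : IsAnti S) {σ : N →ₗ[k] A ⊗[k] N}
    (hσ : IsCoact σ) : Function.Bijective (untw V σ) := by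
  have h : untw V σ = shear V σ ∘ₗ (TensorProduct.assoc k A V N).toLinearMap := by
    ext
    simp [untw]
  rw [h]
  exact (shear_bijective hS hσ).comp (TensorProduct.assoc k A V N).bijective

theorem colin_untw {σ : N →ₗ[k] A ⊗[k] N} (hσ : IsCoact σ) :
    Colin (tens (cof k A V) σ) (cof k A (V ⊗[k] N)) (untw V σ) := by
  unfold Colin
  refine TensorProduct.ext' fun x n => ?_
  simp only [LinearMap.comp_apply, tens_tmul]
  have h1 : cof k A (V ⊗[k] N) (untw V σ (x ⊗ₜ n)) =
      pr2 k A V N (cof k A V x ⊗ₜ σ.lTensor A (σ n)) := by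
    have h2 := comul_pr x (σ n)
    rw [hσ.coassoc_apply] at h2
    exact h2
  have h3 : untw V σ = pr k A V N ∘ₗ TensorProduct.map LinearMap.id σ := rfl
  rw [h1, h3, lTensor_pr, LinearMap.lTensor_id, LinearMap.id_apply]

end Bialg

section Field

variable {k A M N M' N' V B : Type*} [Field k] [CommRing A] [Bialgebra k A]
  [AddCommGroup M] [Module k M] [AddCommGroup N] [Module k N]
  [AddCommGroup M'] [Module k M'] [AddCommGroup N'] [Module k N']
  [AddCommGroup V] [Module k V]

theorem inj_tens_cof {S : A →ₗ[k] A} (hS : IsAnti S) {σ : N →ₗ[k] A ⊗[k] N}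
    (hσ : IsCoact σ) : Inj (tens (cof k A V) σ) :=
  inj_cof.of_bij (colin_untw hσ) (untw_bijective hS hσ)

/-- The tensor product of an injective comodule with any comodule is injective. -/
theorem Inj.tens_left {S : A →ₗ[k] A} (hS : IsAnti S) {ρ : M →ₗ[k] A ⊗[k] M}
    {σ : N →ₗ[k] A ⊗[k] N} (hρ : IsCoact ρ) (hσ : IsCoact σ) (h : Inj ρ) : Inj (tens ρ σ) := by
  obtain ⟨r, hr, hr'⟩ := h
  refine (inj_tens_cof (V := M) hS hσ).retract (hρ.colin.tens (Colin.id σ))
    (hr.tens (Colin.id σ)) ?_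
  rw [← TensorProduct.map_comp, hr', LinearMap.id_comp, TensorProduct.map_id]

theorem Inj.tens_right {S : A →ₗ[k] A} (hS : IsAnti S) {ρ : M →ₗ[k] A ⊗[k] M}
    {σ : N →ₗ[k] A ⊗[k] N} (hρ : IsCoact ρ) (hσ : IsCoact σ) (h : Inj σ) : Inj (tens ρ σ) :=
  (h.tens_left hS hσ hρ).of_bij (colin_comm ρ σ) (TensorProduct.comm k M N).bijective

end Field

end Vale.Agent.P093.N.Co
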